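import Vale.Agent.P181.R2.H780.Comp

/-!
The form of a highest weight vector is invariant under shears and homogeneous for the scaling of
the last variables.
-/

set_option autoImplicit false

open scoped TensorProduct

namespace Vale.Agent.P181.H780

open Vale.Agent.P181 MvPolynomial H280 H536

variable {n : ℕ}

/-- Action of a shear followed by a scaling on the form of a highest weight vector. -/
theorem formOf_shr_scal {a b : ℕ} (lam : Fin (n + 2) → ℕ)
    (l : (Fin a → Fin b → (Fin (n + 2) → ℂ)) →₀ ℂ)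
    (hx : elOf l ∈ hwSpace lam (plethAct a b (n + 2)))
    (g : MvPolynomial (Fin (n + 2)) ℂ →ₐ[ℂ] MvPolynomial (Fin (n + 2)) ℂ)
    (hg : IsShear (Submodule.span ℂ {(X 0 : MvPolynomial (Fin (n + 2)) ℂ), X 1}) (ZZ n) g)
    (t : ℂ) (ht : t ≠ 0) (P : Fin a → MvPolynomial (Fin (n + 2)) ℂ)
    (hP : ∀ i, P i ∈ linS (n + 2) ^ b) :
    formOf l (fun i => g (scal n t (P i))) = t ^ (∑ i : Fin n, lam i.succ.succ) * formOf l P := by
  set r := ∑ i : Fin n, lam i.succ.succ with hr
  obtain ⟨m₁, hm₁⟩ := Submodule.mem_span_range_iff_exists_fun ℂ |>.1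
    (hg.2 (X 0) (Submodule.subset_span (by simp)))
  obtain ⟨m₂, hm₂⟩ := Submodule.mem_span_range_iff_exists_fun ℂ |>.1
    (hg.2 (X 1) (Submodule.subset_span (by simp)))
  have hM : ∀ c : Fin (n + 2), evL (n + 2) (g (scal n t (X c))) =
      fun v => (Matrix.toLin' (mat t m₁ m₂) v) c := by
    intro c
    funext v
    rw [Matrix.toLin'_apply, Matrix.mulVec, dotProduct, Fin.sum_univ_succ, Fin.sum_univ_succ]
    refine Fin.cases ?_ (fun c => ?_) c
    · have h1 : g (scal n t (X 0)) = X 0 + ∑ i, m₁ i • X i.succ.succ := by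
        rw [scal_zero, hm₁]; abel
      rw [h1, map_add, map_sum, evL_X]
      simp only [map_smul, evL_X, Pi.add_apply, Finset.sum_apply, Pi.smul_apply, smul_eq_mul]
      change _ = 1 * v 0 + (0 * v 1 + ∑ i, m₁ i * v i.succ.succ)
      ring
    · refine Fin.cases ?_ (fun c => ?_) c
      · have h1 : g (scal n t (X 1)) = X 1 + ∑ i, m₂ i • X i.succ.succ := by
          rw [scal_one, hm₂]; abel
        change evL (n + 2) (g (scal n t (X 1))) v = _
        rw [h1, map_add, map_sum, evL_X]
        simp only [map_smul, evL_X, Pi.add_apply, Finset.sum_apply, Pi.smul_apply, smul_eq_mul]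
        change _ = 0 * v 0 + (1 * v 1 + ∑ i, m₂ i * v i.succ.succ)
        ring
      · have h1 : g (scal n t (X c.succ.succ)) = t • X c.succ.succ := by
          rw [scal_succ, map_smul, hg.1 _ (Submodule.subset_span ⟨c, rfl⟩)]
        rw [h1, map_smul, evL_X]
        change t * v c.succ.succ = 0 * v 0 + (0 * v 1 +
          ∑ i : Fin n, (if c = i then t else 0) * v i.succ.succ)
        simp
  let Φ : MultilinearMap ℂ (fun _ : Fin a => MvPolynomial (Fin (n + 2)) ℂ) ℂ :=
    comp (comp (formOf l) g) (scal n t) - t ^ r • formOf l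
  have hΦ : Φ P = 0 := by
    apply multilinear_zero_of_span Φ
      (Set.range (fun c : Fin b → Fin (n + 2) => ∏ j, (X (c j) : MvPolynomial (Fin (n + 2)) ℂ)))
    · intro w hw
      choose c hc using hw
      have hw' : w = fun i => ∏ j, X (c i j) := by
        funext i; exact (hc i).symm
      have h1 := formOf_act lam l hx (mat t m₁ m₂) c (fun i j => g (scal n t (X (c i j))))
        (mat_borel ht m₁ m₂) (fun i j => hM (c i j))
      rw [mat_prod] at h1
      rw [hw']
      have h2 : Φ (fun i => ∏ j, X (c i j)) =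
          formOf l (fun i => g (scal n t (∏ j, X (c i j)))) -
            t ^ r * formOf l (fun i => ∏ j, X (c i j)) := rfl
      rw [h2]
      simp only [map_prod]
      rw [h1, sub_self]
    · intro i
      exact span_pow_eq _ _ (hP i)
  have h1 : Φ P = formOf l (fun i => g (scal n t (P i))) - t ^ r * formOf l P := rfl
  rw [h1, sub_eq_zero] at hΦ
  exact hΦ

/-- Invariance under shears. -/
theorem formOf_shear {a b : ℕ} (lam : Fin (n + 2) → ℕ)
    (l : (Fin a → Fin b → (Fin (n + 2) → ℂ)) →₀ ℂ)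
    (hx : elOf l ∈ hwSpace lam (plethAct a b (n + 2)))
    (g : MvPolynomial (Fin (n + 2)) ℂ →ₐ[ℂ] MvPolynomial (Fin (n + 2)) ℂ)
    (hg : IsShear (Submodule.span ℂ {(X 0 : MvPolynomial (Fin (n + 2)) ℂ), X 1}) (ZZ n) g)
    (P : Fin a → MvPolynomial (Fin (n + 2)) ℂ) (hP : ∀ i, P i ∈ linS (n + 2) ^ b) :
    formOf l (fun i => g (P i)) = formOf l P := by
  have h1 := formOf_shr_scal lam l hx g hg 1 one_ne_zero P hP
  have h2 : scal n (1 : ℂ) = AlgHom.id ℂ _ := by
    apply MvPolynomial.algHom_ext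
    intro i
    rw [AlgHom.id_apply]
    refine Fin.cases ?_ (fun i => ?_) i
    · exact scal_zero _
    · refine Fin.cases ?_ (fun i => ?_) i
      · exact scal_one _
      · rw [scal_succ, one_smul]
  rw [h2, one_pow, one_mul] at h1
  exact h1

/-- Homogeneity for the scaling. -/
theorem formOf_scal {a b : ℕ} (lam : Fin (n + 2) → ℕ)
    (l : (Fin a → Fin b → (Fin (n + 2) → ℂ)) →₀ ℂ)
    (hx : elOf l ∈ hwSpace lam (plethAct a b (n + 2)))
    (t : ℂ) (ht : t ≠ 0) (P : Fin a → MvPolynomial (Fin (n + 2)) ℂ)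
    (hP : ∀ i, P i ∈ linS (n + 2) ^ b) :
    formOf l (fun i => scal n t (P i)) = t ^ (∑ i : Fin n, lam i.succ.succ) * formOf l P := by
  have hg : IsShear (Submodule.span ℂ {(X 0 : MvPolynomial (Fin (n + 2)) ℂ), X 1}) (ZZ n)
      (AlgHom.id ℂ (MvPolynomial (Fin (n + 2)) ℂ)) :=
    ⟨fun z _ => rfl, fun u _ => by rw [AlgHom.id_apply, sub_self]; exact Submodule.zero_mem _⟩
  exact formOf_shr_scal lam l hx _ hg t ht P hP

end Vale.Agent.P181.H780
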