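import Vale.Agent.P181.R2.H556.ThreeDefs
import Vale.Agent.P181.R2.H780.Inv

/-!
Rows R10 and R11: the known tail theorem, and the passage to highest weight vectors.
-/

set_option autoImplicit false

open scoped TensorProduct

namespace Vale.Agent.P181.T3R

open MvPolynomial Vale.Agent.P181 Vale.Agent.P181.H536 Vale.Agent.P181.H280 Vale.Agent.P181.H780

lemma tau_eq_scal (c : ℂ) : (scal 1 c : S3 →ₐ[ℂ] S3) = tau c := by
  apply MvPolynomial.algHom_ext
  intro i
  fin_cases i
  · exact (scal_zero (n := 1) c).trans (tau_X0 c).symm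
  · exact (scal_one (n := 1) c).trans (tau_X1 c).symm
  · exact (scal_succ (n := 1) c 0).trans (tau_X2 c).symm

/-- **R10.** The known tail theorem. -/
theorem tree {N b t a : ℕ} (hN : 1 ≤ N) (ht : t + N ≤ b) (ha : a ≤ N + 1) : KK a b t := by
  intro F hs _ hH hK P hP
  have hL : Low 1 b t F := by
    intro c hc
    have h1 := hH 2 two_ne_zero (mons c) (fun i => by
      rw [mons]
      exact prod_mem_pow _ _ (fun j => X_mem_linS _))
    have h2 := scal_mons (n := 1) (2 : ℂ) c F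
    rw [tau_eq_scal] at h2
    rw [h2] at h1
    have h3 : ((2 : ℂ) ^ zcount c - 2 ^ t) * F (mons c) = 0 := by
      rw [sub_mul, h1, sub_self]
    refine (mul_eq_zero.1 h3).resolve_left ?_
    intro h4
    rw [sub_eq_zero] at h4
    have h5 : (2 : ℕ) ^ zcount c = 2 ^ t := by exact_mod_cast h4
    exact absurd (Nat.pow_right_injective le_rfl h5) (by omega)
  have hK' : IsK (Submodule.span ℂ {(X 0 : MvPolynomial (Fin (1 + 2)) ℂ), X 1} ⊔ ZZ 1) b F := by
    rw [sup_eq]
    exact hK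
  refine firstOrder_main (setup 1) (N := N) hN ht a ha F ⟨hs, hK', good_of_low hL⟩ P ?_
  intro i
  rw [sup_eq]
  exact hP i

lemma isShear_sh (ε : ℂ) :
    IsShear (Submodule.span ℂ {(X 0 : MvPolynomial (Fin (1 + 2)) ℂ), X 1}) (ZZ 1) (sh ε) := by
  have hZ : ∀ z ∈ ZZ 1, sh ε z = z := by
    intro z hz
    rw [ZZ] at hz
    induction hz using Submodule.span_induction with
    | mem x hx =>
      obtain ⟨i, rfl⟩ := hx
      fin_cases i
      exact sh_X2 ε
    | zero => rw [map_zero]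
    | add x y _ _ hx hy => rw [map_add, hx, hy]
    | smul c x _ hx => rw [map_smul, hx]
  refine ⟨hZ, ?_⟩
  intro u hu
  obtain ⟨α, β, rfl⟩ := Submodule.mem_span_pair.1 hu
  have h2 : (X 2 : S3) ∈ ZZ 1 := Submodule.subset_span ⟨0, rfl⟩
  have h0 : sh ε (X 0) = X 0 + ε • X 2 := sh_X0 ε
  have h1 : sh ε (X 1) = X 1 := sh_X1 ε
  have h3 : sh ε (α • X 0 + β • X 1) - (α • X 0 + β • X 1) = α • ε • (X 2 : S3) := by
    rw [map_add, map_smul, map_smul, h0, h1, smul_add]
    abel
  exact h3 ▸ (ZZ 1).smul_mem _ ((ZZ 1).smul_mem _ h2)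

/-- **R11.** Injectivity on highest weight vectors. -/
theorem injOn_of_KK {a b : ℕ} (lam : Fin 3 → ℕ) (hK : KK a b (lam 2)) (x : Pleth a b 3)
    (hx : x ∈ hwSpace lam (plethAct a b 3)) (h0 : foulkesHowe a b (Fin 3 → ℂ) x = 0) : x = 0 := by
  obtain ⟨l, rfl⟩ := exists_elOf x
  apply elOf_eq_zero
  refine hK (formOf l) (formOf_symm l) ?_ ?_ (isK_formOf l h0)
  · intro ε P hP
    exact formOf_shear (n := 1) lam l hx (sh ε) (isShear_sh ε) P hP
  · intro c hc P hP
    have h1 := formOf_scal (n := 1) lam l hx c hc P hP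
    have h2 : (∑ i : Fin 1, lam i.succ.succ) = lam 2 := by
      rw [Fin.sum_univ_one]; rfl
    rw [h2, tau_eq_scal] at h1
    exact h1

theorem plethMult_of_KK {a b : ℕ} (lam : Fin 3 → ℕ) (hK : KK a b (lam 2)) :
    plethMult a b 3 lam ≤ plethMult b a 3 lam :=
  finrank_le_of_inj (foulkesHowe a b (Fin 3 → ℂ)) _ _
    (fun x hx => foulkesHowe_hwSpace lam x hx)
    (fun x hx h0 => injOn_of_KK lam hK x hx h0)

end Vale.Agent.P181.T3R
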