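import Vale.Agent.P181.R2.H780.LemmaC2

set_option autoImplicit false

open Polynomial Finset

namespace Vale.Agent.P181.H780

open Vale.Agent.P181

variable {A : Type*} [CommRing A] [Algebra ℂ A]

/-- The canonical kernel of degree `a` on forms of degree `b` is zero. -/
def NoKer (L : Submodule ℂ A) (a b : ℕ) : Prop :=
  ∀ F : MultilinearMap ℂ (fun _ : Fin a => A) ℂ, IsSymm F → IsK L b F →
    ∀ P : Fin a → A, (∀ i, P i ∈ L ^ b) → F P = 0

theorem noKer_zero (L : Submodule ℂ A) (b : ℕ) : NoKer L 0 b := by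
  intro F _ hK P _
  have h1 := hK (Multiset.replicate b 0) (by simp) (by
    intro x hx
    rw [Multiset.eq_of_mem_replicate hx]; exact L.zero_mem)
  rw [← h1]
  congr 1
  funext i
  exact i.elim0

theorem noKer_one (L : Submodule ℂ A) (b : ℕ) : NoKer L 1 b := by
  intro F _ hK P hP
  let φ : A →ₗ[ℂ] ℂ := F.toLinearMap (fun _ => 0) 0
  have hφ : ∀ z, φ z = F (fun _ => z) := by
    intro z
    change F (Function.update (fun _ => 0) 0 z) = _
    congr 1
    funext i
    have hi : i = 0 := Fin.ext (by have := i.2; simp)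
    rw [hi, Function.update_self]
  have hle : L ^ b ≤ LinearMap.ker φ := by
    refine (pow_le_span_pow L _).trans ?_
    rw [Submodule.span_le]
    rintro _ ⟨ζ, hζ, rfl⟩
    simp only [SetLike.mem_coe, LinearMap.mem_ker]
    rw [hφ]
    have h1 := hK (Multiset.replicate b ζ) (by simp) (by
      intro x hx
      rw [Multiset.eq_of_mem_replicate hx]; exact hζ)
    simpa only [Multiset.prod_replicate] using h1
  have h2 := hle (hP 0)
  rw [LinearMap.mem_ker, hφ] at h2
  rw [← h2]
  congr 1
  funext i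
  have hi : i = 0 := Fin.ext (by have := i.2; simp)
  rw [hi]

/-- Claim A with equal exponents. -/
theorem claimA_const (L : Submodule ℂ A) {k : ℕ} (G : MultilinearMap ℂ (fun _ : Fin k => A) ℂ)
    {c m : ℕ} (hkm : k * m ≤ c)
    (h : ∀ ξ ∈ L, ∀ P : Fin k → A, (∀ i, P i ∈ L ^ (c - m)) → G (fun i => ξ ^ m * P i) = 0) :
    ∀ P : Fin k → A, (∀ i, P i ∈ L ^ c) → G P = 0 := by
  refine claimA L G (fun _ => c) (fun _ => m) ?_ h
  intro j
  rw [Finset.sum_const, smul_eq_mul, Fin.card_Iic]
  exact le_trans (Nat.mul_le_mul_right _ j.2) hkm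

/-- **One step of the recursion with two letters.** -/
theorem step2 {L : Submodule ℂ A} {k m₁ m₂ b : ℕ} (hk : k ≤ m₁ + m₂) (hb : m₁ + m₂ ≤ b)
    (hbase : ∀ x ∈ L, ∀ y ∈ L, BaseAt L k (m₁ + m₂) (x ^ m₁ * y ^ m₂))
    (hker : NoKer L k (b - (m₁ + m₂))) (h1 : k * m₁ ≤ b) (h2 : k * m₂ + m₁ ≤ b) :
    NoKer L (k + 1) b := by
  intro F hs hK P hP
  have hP0 : P = Fin.cons (P 0) (fun i => P i.succ) := by
    funext i
    refine Fin.cases ?_ (fun i => ?_) i
    · rfl
    · rfl
  rw [hP0, ← MultilinearMap.curryLeft_apply]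
  refine claimA_const L (F.curryLeft (P 0)) h1 ?_ _ (fun i => hP i.succ)
  intro x hx P' hP'
  have key := claimA_const L (mulArg (F.curryLeft (P 0)) (fun _ => x ^ m₁))
    (c := b - m₁) (m := m₂) (by omega) ?_ P' hP'
  · rwa [mulArg_apply] at key
  · intro y hy P'' hP''
    rw [mulArg_apply]
    have h3 := hker (mulArg (F.curryLeft (P 0)) (fun _ => x ^ m₁ * y ^ m₂))
      ((hs.curryLeft _).mulArg_const _) ?_ P'' (by
        intro i
        have h4 : b - (m₁ + m₂) = b - m₁ - m₂ := by omega
        rw [h4]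
        exact hP'' i)
    · rw [mulArg_apply] at h3
      rw [← h3]
      congr 1
      funext i
      ring
    · intro m hm hmL
      rw [mulArg_apply]
      have h4 := lemmaC2 hk (hbase x hx y hy) F hs hK m hmL 0 (by simp) (by
        rw [Multiset.card_zero, hm]; omega) (P 0) (by
        have h5 : m₁ + m₂ + m.card = b := by omega
        rw [h5]; exact hP 0)
      simpa only [Multiset.prod_zero, mul_one] using h4

/-- **One step of the recursion with one letter** (the recursion of `core2`). -/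
theorem step1 {L : Submodule ℂ A} (hL : HasRoots L) {k b : ℕ} (hk : 0 < k) (hb : k ≤ b)
    (hker : NoKer L k (b - k)) (h1 : k * k ≤ b) : NoKer L (k + 1) b := by
  refine step2 (m₁ := k) (m₂ := 0) (by omega) (by omega) ?_ (by simpa using hker) h1
    (by omega)
  intro x hx y _
  simpa using baseAt_pow hL hk hx

/-- **The recursion.** If for every `k < a` either the one-letter or the two-letter step is
available, then the canonical kernel of degree `a` is zero from `B a` on. -/
theorem chain {L : Submodule ℂ A} (hL : HasRoots L) (m₁ m₂ B : ℕ → ℕ) (a : ℕ)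
    (hB : ∀ k, 0 < k → k < a → B k + (m₁ k + m₂ k) ≤ B (k + 1) ∧ k * m₁ k ≤ B (k + 1) ∧
      k * m₂ k + m₁ k ≤ B (k + 1))
    (hbase : ∀ k, 0 < k → k < a → (m₁ k = k ∧ m₂ k = 0) ∨ (k ≤ m₁ k + m₂ k ∧
      ∀ x ∈ L, ∀ y ∈ L, BaseAt L k (m₁ k + m₂ k) (x ^ m₁ k * y ^ m₂ k))) :
    ∀ b, B a ≤ b → NoKer L a b := by
  induction a with
  | zero => intro b _; exact noKer_zero L b
  | succ k ih =>
    intro b hb
    rcases Nat.eq_zero_or_pos k with hk | hk
    · subst hk
      exact noKer_one L b
    · have ih' := ih (fun j hj hjk => hB j hj (by omega)) (fun j hj hjk => hbase j hj (by omega))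
      obtain ⟨hB1, hB2, hB3⟩ := hB k hk (by omega)
      rcases hbase k hk (by omega) with ⟨h1, h2⟩ | ⟨h1, h2⟩
      · rw [h1, h2] at hB1
        rw [h1] at hB2
        exact step1 hL hk (by omega) (ih' _ (by omega)) (by omega)
      · exact step2 h1 (by omega) h2 (ih' _ (by omega)) (by omega) (by omega)

end Vale.Agent.P181.H780
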