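import Vale.Agent.P181.R2.H780.Comp
import Vale.Agent.P181.R2.H780.Chain

/-!
The two-letter base follows from a vanishing statement for three variables.
-/

set_option autoImplicit false

open MvPolynomial

namespace Vale.Agent.P181.H780

open Vale.Agent.P181 H280 H536

/-- The tail statement in three variables: a symmetric `m`-linear form on ternary forms of degree
`N` that vanishes on the diagonal at products of linear forms and at tuples of monomials with more
than `r` letters `X 2` is zero. -/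
def Tail3 (m N r : ℕ) : Prop :=
  ∀ G : MultilinearMap ℂ (fun _ : Fin m => MvPolynomial (Fin (1 + 2)) ℂ) ℂ,
    IsSymm G → IsK (linS (1 + 2)) N G → Low 1 N r G →
    ∀ P : Fin m → MvPolynomial (Fin (1 + 2)) ℂ, (∀ i, P i ∈ linS (1 + 2) ^ N) → G P = 0

/-- The same with the hypothesis `Cls` of `H536`. -/
theorem tail3_of_cls {m N r : ℕ}
    (h : ∀ G : MultilinearMap ℂ (fun _ : Fin m => MvPolynomial (Fin (1 + 2)) ℂ) ℂ,
      Cls (X 0 : MvPolynomial (Fin (1 + 2)) ℂ) (X 1) (ZZ 1) (scal 1) N r G →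
      ∀ P : Fin m → MvPolynomial (Fin (1 + 2)) ℂ, (∀ i, P i ∈ linS (1 + 2) ^ N) → G P = 0) :
    Tail3 m N r := by
  intro G hs hK hL P hP
  refine h G ⟨hs, ?_, good_of_low hL⟩ P hP
  rw [sup_eq]
  exact hK

/-- The known tail: `r + m ≤ N + 1`. -/
theorem tail3_known {m N r : ℕ} (h : r + m ≤ N + 1) (hm : 2 ≤ m) : Tail3 m N r := by
  apply tail3_of_cls
  intro G hG P hP
  rw [← sup_eq] at hP
  exact firstOrder_main (setup 1) (N := m - 1) (by omega) (by omega) m (by omega) G hG P hP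

variable {A : Type*} [CommRing A] [Algebra ℂ A]

/-- Composition with an algebra map into another algebra. -/
noncomputable def pull {m : ℕ} (G : MultilinearMap ℂ (fun _ : Fin m => A) ℂ)
    (φ : MvPolynomial (Fin (1 + 2)) ℂ →ₐ[ℂ] A) :
    MultilinearMap ℂ (fun _ : Fin m => MvPolynomial (Fin (1 + 2)) ℂ) ℂ :=
  G.compLinearMap (fun _ => φ.toLinearMap)

lemma pull_apply {m : ℕ} (G : MultilinearMap ℂ (fun _ : Fin m => A) ℂ)
    (φ : MvPolynomial (Fin (1 + 2)) ℂ →ₐ[ℂ] A) (P : Fin m → MvPolynomial (Fin (1 + 2)) ℂ) :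
    pull G φ P = G (fun i => φ (P i)) := rfl

lemma isSymm_pull {m : ℕ} {G : MultilinearMap ℂ (fun _ : Fin m => A) ℂ} (hG : IsSymm G)
    (φ : MvPolynomial (Fin (1 + 2)) ℂ →ₐ[ℂ] A) : IsSymm (pull G φ) :=
  fun σ P => hG σ (fun i => φ (P i))

lemma isK_pull {m b : ℕ} {L : Submodule ℂ A} {G : MultilinearMap ℂ (fun _ : Fin m => A) ℂ}
    (hG : IsK L b G) (φ : MvPolynomial (Fin (1 + 2)) ℂ →ₐ[ℂ] A)
    (hφ : ∀ x ∈ linS (1 + 2), φ x ∈ L) : IsK (linS (1 + 2)) b (pull G φ) := by
  intro M hM hML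
  rw [pull_apply]
  have h1 := hG (M.map φ) (by rw [Multiset.card_map, hM]) (by
    intro x hx
    obtain ⟨y, hy, rfl⟩ := Multiset.mem_map.1 hx
    exact hφ y (hML y hy))
  rw [← h1]
  congr 1
  funext i
  rw [map_multiset_prod]

/-- The word `X2^N` in the first slot and `X0^m₁ X1^m₂` in the others. -/
def word (k m₁ m₂ : ℕ) : Fin (k + 1) → Fin (m₁ + m₂) → Fin (1 + 2) :=
  Fin.cons (fun _ => 2) (fun _ => Fin.append (fun _ => 0) (fun _ => 1))

lemma mons_word (k m₁ m₂ : ℕ) : mons (word k m₁ m₂) = Fin.cons (X 2 ^ (m₁ + m₂))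
    (fun _ => X 0 ^ m₁ * X 1 ^ m₂) := by
  funext i
  refine Fin.cases ?_ (fun i => ?_) i
  · simp [mons, word]
  · rw [mons, word, Fin.cons_succ, Fin.cons_succ, Fin.prod_univ_add]
    simp

lemma zcount_word (k m₁ m₂ : ℕ) : zcount (word k m₁ m₂) = m₁ + m₂ := by
  rw [zcount]
  have h : (Finset.univ.filter (fun q : Fin (k + 1) × Fin (m₁ + m₂) =>
      2 ≤ ((word k m₁ m₂ q.1 q.2 : Fin (1 + 2)) : ℕ))) =
      ({0} : Finset (Fin (k + 1))) ×ˢ (Finset.univ : Finset (Fin (m₁ + m₂))) := by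
    ext ⟨i, j⟩
    simp only [Finset.mem_filter, Finset.mem_univ, true_and, Finset.mem_product,
      Finset.mem_singleton, and_true]
    refine Fin.cases ?_ (fun i => ?_) i
    · simp [word]
    · have h1 : i.succ ≠ (0 : Fin (k + 1)) := Fin.succ_ne_zero i
      simp only [h1, iff_false, not_le, word, Fin.cons_succ]
      refine Fin.addCases (fun j => ?_) (fun j => ?_) j
      · rw [Fin.append_left]; decide
      · rw [Fin.append_right]; decide
  rw [h, Finset.card_product, Finset.card_singleton, one_mul, Finset.card_univ, Fintype.card_fin]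

/-- **The two-letter base from the tail statement.** -/
theorem baseAt_of_tail3 {L : Submodule ℂ A} {k m₁ m₂ : ℕ}
    (h3 : Tail3 (k + 1) (m₁ + m₂) (m₁ + m₂)) {x y : A} (hx : x ∈ L) (hy : y ∈ L) :
    BaseAt L k (m₁ + m₂) (x ^ m₁ * y ^ m₂) := by
  intro G hs hK h hh
  let ψ : A →ₗ[ℂ] ℂ :=
    { toFun := fun u => G.curryLeft u (fun _ => x ^ m₁ * y ^ m₂)
      map_add' := fun a b => by rw [map_add]; rfl
      map_smul' := fun c a => by rw [map_smul]; rfl }
  have hle : L ^ (m₁ + m₂) ≤ LinearMap.ker ψ := by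
    refine (pow_le_span_pow _ _).trans ?_
    rw [Submodule.span_le]
    rintro _ ⟨θ, hθ, rfl⟩
    simp only [SetLike.mem_coe, LinearMap.mem_ker]
    change G.curryLeft (θ ^ (m₁ + m₂)) (fun _ => x ^ m₁ * y ^ m₂) = 0
    let φ : MvPolynomial (Fin (1 + 2)) ℂ →ₐ[ℂ] A := aeval ![x, y, θ]
    have hφ0 : φ (X 0) = x := by simp [φ]
    have hφ1 : φ (X 1) = y := by simp [φ]
    have hφ2 : φ (X 2) = θ := by simp [φ]
    have hφL : ∀ z ∈ linS (1 + 2), φ z ∈ L := by
      intro z hz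
      rw [linS] at hz
      induction hz using Submodule.span_induction with
      | mem z hz =>
        obtain ⟨e, rfl⟩ := hz
        fin_cases e
        · exact hφ0 ▸ hx
        · exact hφ1 ▸ hy
        · exact hφ2 ▸ hθ
      | zero => rw [map_zero]; exact Submodule.zero_mem _
      | add a b _ _ ha hb => rw [map_add]; exact Submodule.add_mem _ ha hb
      | smul c a _ ha => rw [map_smul]; exact Submodule.smul_mem _ _ ha
    set N := m₁ + m₂ with hN
    have hs' := isSymm_pull hs φ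
    have hK' := isK_pull hK φ hφL
    have h4 := h3 (hcomp 1 ((k + 1) * N) N (pull G φ)) (isSymm_hcomp hs') (isK_hcomp hK')
      (hcomp_low le_rfl _) (mons (word k m₁ m₂)) (by
        intro i
        rw [mons]
        exact prod_mem_pow _ _ (fun j => X_mem_linS _))
    rw [hcomp_mons _ _ (zcount_le _), zcount_word, if_pos rfl, mons_word, pull_apply] at h4
    rw [MultilinearMap.curryLeft_apply, ← h4]
    congr 1
    funext i
    refine Fin.cases ?_ (fun i => ?_) i
    · rw [Fin.cons_zero, Fin.cons_zero, map_pow, hφ2]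
    · rw [Fin.cons_succ, Fin.cons_succ, map_mul, map_pow, map_pow, hφ0, hφ1]
  exact hle hh

/-- **The chain with the tail statements as hypotheses.** -/
theorem chain3 {L : Submodule ℂ A} (hL : HasRoots L) (m₁ m₂ B : ℕ → ℕ) (a : ℕ)
    (hB : ∀ k, 0 < k → k < a → B k + (m₁ k + m₂ k) ≤ B (k + 1) ∧ k * m₁ k ≤ B (k + 1) ∧
      k * m₂ k + m₁ k ≤ B (k + 1))
    (hbase : ∀ k, 0 < k → k < a → (m₁ k = k ∧ m₂ k = 0) ∨ (k ≤ m₁ k + m₂ k ∧
      Tail3 (k + 1) (m₁ k + m₂ k) (m₁ k + m₂ k))) :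
    ∀ b, B a ≤ b → NoKer L a b :=
  chain hL m₁ m₂ B a hB (fun k hk hka => (hbase k hk hka).imp id
    (fun h => ⟨h.1, fun _ hx _ hy => baseAt_of_tail3 h.2 hx hy⟩))

end Vale.Agent.P181.H780
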