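import Vale.Agent.P181.H536.HW

/-!
Homogeneous components of a multilinear form for the scaling of the last variables, and the
criterion for `Good`: a form that vanishes at all tuples of monomials with more than `r` letters
from the scaled variables has degree at most `r` after every shear.
-/

set_option autoImplicit false

open MvPolynomial

namespace Vale.Agent.P181.H780

open Vale.Agent.P181 H280 H536

lemma zero_of_span_dep {κ : Type*} [Fintype κ] {M N : Type*} [AddCommGroup M] [Module ℂ M]
    [AddCommGroup N] [Module ℂ N] (Φ : MultilinearMap ℂ (fun _ : κ => M) N) (S : κ → Set M)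
    (h : ∀ w : κ → M, (∀ i, w i ∈ S i) → Φ w = 0) (w : κ → M)
    (hw : ∀ i, w i ∈ Submodule.span ℂ (S i)) : Φ w = 0 := by
  classical
  have h1 : ∀ i, ∃ l : S i →₀ ℂ, Finsupp.linearCombination ℂ (Subtype.val : S i → M) l = w i := by
    intro i
    rw [← Finsupp.mem_span_iff_linearCombination]
    exact hw i
  choose l hl using h1
  have h2 : w = fun i => ∑ r ∈ (l i).support, (l i r) • (r : M) := by
    funext i
    rw [← hl i, Finsupp.linearCombination_apply, Finsupp.sum]
  rw [h2, MultilinearMap.map_sum_finset]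
  apply Finset.sum_eq_zero
  intro r _
  rw [MultilinearMap.map_smul_univ, h _ (fun i => (r i).2), smul_zero]

variable {n m b : ℕ}

/-- The number of scaled letters of a tuple of monomials. -/
def zcount (c : Fin m → Fin b → Fin (n + 2)) : ℕ :=
  (Finset.univ.filter (fun q : Fin m × Fin b => 2 ≤ ((c q.1 q.2 : Fin (n + 2)) : ℕ))).card

/-- The tuple of monomials. -/
noncomputable def mons (c : Fin m → Fin b → Fin (n + 2)) : Fin m → MvPolynomial (Fin (n + 2)) ℂ :=
  fun i => ∏ j, X (c i j)

/-- The form vanishes at tuples of monomials of degree `b` with more than `r` scaled letters. -/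
def Low (n b r : ℕ) {m : ℕ}
    (G : MultilinearMap ℂ (fun _ : Fin m => MvPolynomial (Fin (n + 2)) ℂ) ℂ) : Prop :=
  ∀ c : Fin m → Fin b → Fin (n + 2), r < zcount c → G (mons c) = 0

/-- `G` of products, as a multilinear map of all factors. -/
noncomputable def prodForm (G : MultilinearMap ℂ (fun _ : Fin m => MvPolynomial (Fin (n + 2)) ℂ) ℂ)
    (b : ℕ) : MultilinearMap ℂ (fun _ : Fin m × Fin b => MvPolynomial (Fin (n + 2)) ℂ) ℂ where
  toFun v := G (fun i => ∏ j, v (i, j))
  map_update_add' := by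
    intro _ v q x y
    have key : ∀ z : MvPolynomial (Fin (n + 2)) ℂ,
        (fun i => ∏ j, Function.update v q z (i, j)) =
        Function.update (fun i => ∏ j, v (i, j)) q.1
          (z * ∏ j ∈ Finset.univ.erase q.2, v (q.1, j)) := by
      intro z
      funext i
      by_cases hi : i = q.1
      · subst hi
        rw [Function.update_self, ← Finset.mul_prod_erase Finset.univ _ (Finset.mem_univ q.2)]
        congr 1
        · simp
        · refine Finset.prod_congr rfl fun j hj => ?_
          rw [Function.update_of_ne]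
          intro h
          exact Finset.ne_of_mem_erase hj (congrArg Prod.snd h)
      · rw [Function.update_of_ne hi]
        refine Finset.prod_congr rfl fun j _ => ?_
        rw [Function.update_of_ne]
        intro h
        exact hi (congrArg Prod.fst h)
    rw [key, key, key, add_mul, MultilinearMap.map_update_add]
  map_update_smul' := by
    intro _ v q c x
    have key : ∀ z : MvPolynomial (Fin (n + 2)) ℂ,
        (fun i => ∏ j, Function.update v q z (i, j)) =
        Function.update (fun i => ∏ j, v (i, j)) q.1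
          (z * ∏ j ∈ Finset.univ.erase q.2, v (q.1, j)) := by
      intro z
      funext i
      by_cases hi : i = q.1
      · subst hi
        rw [Function.update_self, ← Finset.mul_prod_erase Finset.univ _ (Finset.mem_univ q.2)]
        congr 1
        · simp
        · refine Finset.prod_congr rfl fun j hj => ?_
          rw [Function.update_of_ne]
          intro h
          exact Finset.ne_of_mem_erase hj (congrArg Prod.snd h)
      · rw [Function.update_of_ne hi]
        refine Finset.prod_congr rfl fun j _ => ?_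
        rw [Function.update_of_ne]
        intro h
        exact hi (congrArg Prod.fst h)
    rw [key, key, smul_mul_assoc, MultilinearMap.map_update_smul]

lemma prodForm_apply (G : MultilinearMap ℂ (fun _ : Fin m => MvPolynomial (Fin (n + 2)) ℂ) ℂ)
    (v : Fin m × Fin b → MvPolynomial (Fin (n + 2)) ℂ) :
    prodForm G b v = G (fun i => ∏ j, v (i, j)) := rfl

/-- A low form vanishes at products of linear forms more than `r` of which are in `ZZ n`. -/
lemma Low.vanish {r : ℕ} {G : MultilinearMap ℂ (fun _ : Fin m => MvPolynomial (Fin (n + 2)) ℂ) ℂ}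
    (hG : Low n b r G) (D : Finset (Fin m × Fin b)) (hD : r < D.card)
    (v : Fin m × Fin b → MvPolynomial (Fin (n + 2)) ℂ) (hv : ∀ q, v q ∈ linS (n + 2))
    (hvD : ∀ q ∈ D, v q ∈ ZZ n) : G (fun i => ∏ j, v (i, j)) = 0 := by
  classical
  rw [← prodForm_apply]
  refine zero_of_span_dep (prodForm G b) (fun q => if q ∈ D then
    Set.range (fun i : Fin n => (X i.succ.succ : MvPolynomial (Fin (n + 2)) ℂ))
    else Set.range (X : Fin (n + 2) → MvPolynomial (Fin (n + 2)) ℂ)) ?_ v ?_
  · intro w hw
    have h1 : ∀ q, ∃ e : Fin (n + 2), w q = X e ∧ (q ∈ D → 2 ≤ (e : ℕ)) := by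
      intro q
      have := hw q
      by_cases hq : q ∈ D
      · rw [if_pos hq] at this
        obtain ⟨i, hi⟩ := this
        exact ⟨i.succ.succ, hi.symm, fun _ => by simp [Fin.val_succ]⟩
      · rw [if_neg hq] at this
        obtain ⟨i, hi⟩ := this
        exact ⟨i, hi.symm, fun h => absurd h hq⟩
    choose e he heD using h1
    rw [prodForm_apply]
    have h2 := hG (fun i j => e (i, j)) ?_
    · rw [← h2]
      congr 1
      funext i
      exact Finset.prod_congr rfl fun j _ => he (i, j)
    · refine lt_of_lt_of_le hD (Finset.card_le_card ?_)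
      intro q hq
      rw [Finset.mem_filter]
      exact ⟨Finset.mem_univ _, heD q hq⟩
  · intro q
    by_cases hq : q ∈ D
    · simp only [hq, if_true]; exact hvD q hq
    · simp only [hq, if_false]; exact hv q

/-- The homogeneous component of degree `d` for the scaling. -/
noncomputable def hcomp (n K d : ℕ) {m : ℕ}
    (G : MultilinearMap ℂ (fun _ : Fin m => MvPolynomial (Fin (n + 2)) ℂ) ℂ) :
    MultilinearMap ℂ (fun _ : Fin m => MvPolynomial (Fin (n + 2)) ℂ) ℂ :=
  ∑ e : Fin (K + 1), ((Lagrange.basis Finset.univ (fun k : Fin (K + 1) => ((k : ℕ) : ℂ)) e).coeff d) •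
    comp G (scal n ((e : ℕ) : ℂ))

lemma lagrange_sum (K d e : ℕ) (he : e ≤ K) :
    ∑ k : Fin (K + 1), (Lagrange.basis Finset.univ (fun k : Fin (K + 1) => ((k : ℕ) : ℂ)) k).coeff d *
      ((k : ℕ) : ℂ) ^ e = if d = e then 1 else 0 := by
  have h1 := Lagrange.eq_interpolate (s := (Finset.univ : Finset (Fin (K + 1))))
    (v := fun k : Fin (K + 1) => ((k : ℕ) : ℂ)) (f := (Polynomial.X : Polynomial ℂ) ^ e)
    (fun a _ b _ h => Fin.ext (Nat.cast_injective (R := ℂ) h)) (by
      rw [Polynomial.degree_X_pow, Finset.card_univ, Fintype.card_fin]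
      exact_mod_cast Nat.lt_succ_of_le he)
  have h2 := congrArg (fun p => p.coeff d) h1
  simp only [Lagrange.interpolate_apply, Polynomial.finsetSum_coeff, Polynomial.coeff_C_mul,
    Polynomial.eval_pow, Polynomial.eval_X, Polynomial.coeff_X_pow] at h2
  rw [h2]
  refine Finset.sum_congr rfl fun k _ => ?_
  ring

/-- Scaling a monomial. -/
lemma scal_mons (t : ℂ) (c : Fin m → Fin b → Fin (n + 2)) (G : MultilinearMap ℂ
    (fun _ : Fin m => MvPolynomial (Fin (n + 2)) ℂ) ℂ) :
    G (fun i => scal n t (mons c i)) = t ^ zcount c * G (mons c) := by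
  classical
  have h1 : ∀ e : Fin (n + 2), scal n t (X e) = (if 2 ≤ (e : ℕ) then t else 1) • X e := by
    intro e
    refine Fin.cases ?_ (fun e => ?_) e
    · rw [scal_zero]; simp
    · refine Fin.cases ?_ (fun e => ?_) e
      · rw [show (Fin.succ (0 : Fin (n + 1)) : Fin (n + 2)) = 1 from rfl, scal_one]; simp
      · rw [scal_succ, if_pos (by simp [Fin.val_succ])]
  have h2 : (fun i => scal n t (mons c i)) =
      fun i => (∏ j, (if 2 ≤ ((c i j : Fin (n + 2)) : ℕ) then t else 1)) • mons c i := by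
    funext i
    rw [mons, map_prod]
    simp only [h1]
    rw [Finset.prod_smul]
  rw [h2, MultilinearMap.map_smul_univ, smul_eq_mul]
  congr 1
  rw [zcount, ← Fintype.prod_prod_type' (fun (i : Fin m) (j : Fin b) =>
    if 2 ≤ ((c i j : Fin (n + 2)) : ℕ) then t else 1), Finset.prod_ite, Finset.prod_const,
    Finset.prod_const_one, mul_one]


lemma hcomp_mons {K d : ℕ} (G : MultilinearMap ℂ
    (fun _ : Fin m => MvPolynomial (Fin (n + 2)) ℂ) ℂ) (c : Fin m → Fin b → Fin (n + 2))
    (hc : zcount c ≤ K) : hcomp n K d G (mons c) = if d = zcount c then G (mons c) else 0 := by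
  rw [hcomp]
  simp only [sum_apply, smul_apply, smul_eq_mul]
  have h1 : ∀ e : Fin (K + 1), comp G (scal n ((e : ℕ) : ℂ)) (mons c) =
      ((e : ℕ) : ℂ) ^ zcount c * G (mons c) := fun e => scal_mons _ c G
  simp only [h1, ← mul_assoc]
  rw [← Finset.sum_mul, lagrange_sum K d (zcount c) hc]
  split_ifs <;> simp

lemma zcount_le (c : Fin m → Fin b → Fin (n + 2)) : zcount c ≤ m * b := by
  rw [zcount]
  refine (Finset.card_le_univ _).trans ?_
  simp

lemma hcomp_low {K r : ℕ} (hK : m * b ≤ K) (G : MultilinearMap ℂ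
    (fun _ : Fin m => MvPolynomial (Fin (n + 2)) ℂ) ℂ) : Low n b r (hcomp n K r G) := by
  intro c hc
  rw [hcomp_mons G c ((zcount_le c).trans hK), if_neg (by omega)]

lemma scal_linS (t : ℂ) {x : MvPolynomial (Fin (n + 2)) ℂ} (hx : x ∈ linS (n + 2)) :
    scal n t x ∈ linS (n + 2) := by
  rw [linS] at hx
  induction hx using Submodule.span_induction with
  | mem x hx =>
    obtain ⟨e, rfl⟩ := hx
    refine Fin.cases ?_ (fun e => ?_) e
    · rw [scal_zero]; exact X_mem_linS _
    · refine Fin.cases ?_ (fun e => ?_) e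
      · rw [show (Fin.succ (0 : Fin (n + 1)) : Fin (n + 2)) = 1 from rfl, scal_one]
        exact X_mem_linS _
      · rw [scal_succ]; exact Submodule.smul_mem _ _ (X_mem_linS _)
  | zero => rw [map_zero]; exact Submodule.zero_mem _
  | add x y _ _ hx hy => rw [map_add]; exact Submodule.add_mem _ hx hy
  | smul c x _ hx => rw [map_smul]; exact Submodule.smul_mem _ _ hx

lemma isK_comp {L L' : Submodule ℂ (MvPolynomial (Fin (n + 2)) ℂ)} {G : MultilinearMap ℂ
    (fun _ : Fin m => MvPolynomial (Fin (n + 2)) ℂ) ℂ} (hG : IsK L b G)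
    (g : MvPolynomial (Fin (n + 2)) ℂ →ₐ[ℂ] MvPolynomial (Fin (n + 2)) ℂ)
    (hg : ∀ x ∈ L', g x ∈ L) : IsK L' b (comp G g) := by
  intro M hM hML
  rw [comp_apply]
  have h1 := hG (M.map g) (by rw [Multiset.card_map, hM]) (by
    intro x hx
    obtain ⟨y, hy, rfl⟩ := Multiset.mem_map.1 hx
    exact hg y (hML y hy))
  rw [← h1]
  congr 1
  funext i
  rw [map_multiset_prod]

lemma isSymm_comp {G : MultilinearMap ℂ (fun _ : Fin m => MvPolynomial (Fin (n + 2)) ℂ) ℂ}
    (hG : IsSymm G) (g : MvPolynomial (Fin (n + 2)) ℂ →ₐ[ℂ] MvPolynomial (Fin (n + 2)) ℂ) :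
    IsSymm (comp G g) := fun σ P => hG σ (fun i => g (P i))

lemma isK_hcomp {K d : ℕ} {G : MultilinearMap ℂ
    (fun _ : Fin m => MvPolynomial (Fin (n + 2)) ℂ) ℂ} (hG : IsK (linS (n + 2)) b G) :
    IsK (linS (n + 2)) b (hcomp n K d G) := by
  intro M hM hML
  rw [hcomp]
  simp only [sum_apply, smul_apply, smul_eq_mul]
  refine Finset.sum_eq_zero fun e _ => ?_
  rw [isK_comp hG (scal n ((e : ℕ) : ℂ)) (fun x hx => scal_linS _ hx) M hM hML, mul_zero]

lemma isSymm_hcomp {K d : ℕ} {G : MultilinearMap ℂ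
    (fun _ : Fin m => MvPolynomial (Fin (n + 2)) ℂ) ℂ} (hG : IsSymm G) :
    IsSymm (hcomp n K d G) := by
  intro σ P
  rw [hcomp]
  simp only [sum_apply, smul_apply, smul_eq_mul]
  refine Finset.sum_congr rfl fun e _ => ?_
  rw [isSymm_comp hG _ σ P]

/-- The expansion of a scaled form in its homogeneous components. -/
theorem comp_scal_eq (G : MultilinearMap ℂ (fun _ : Fin m => MvPolynomial (Fin (n + 2)) ℂ) ℂ)
    (t : ℂ) (P : Fin m → MvPolynomial (Fin (n + 2)) ℂ) (hP : ∀ i, P i ∈ linS (n + 2) ^ b) :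
    comp G (scal n t) P =
      (∑ d ∈ Finset.range (m * b + 1), t ^ d • hcomp n (m * b) d G) P := by
  rw [← sub_eq_zero, ← sub_apply]
  apply multilinear_zero_of_span (comp G (scal n t) -
      ∑ d ∈ Finset.range (m * b + 1), t ^ d • hcomp n (m * b) d G)
    (Set.range (fun c : Fin b → Fin (n + 2) => ∏ j, (X (c j) : MvPolynomial (Fin (n + 2)) ℂ)))
  · intro w hw
    choose c hc using hw
    have hw' : w = mons c := by
      funext i; exact (hc i).symm
    rw [hw', sub_apply, comp_apply, scal_mons]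
    simp only [sum_apply, smul_apply, smul_eq_mul]
    rw [Finset.sum_eq_single (zcount c)]
    · rw [hcomp_mons _ c (zcount_le c), if_pos rfl, sub_self]
    · intro d _ hd
      rw [hcomp_mons _ c (zcount_le c), if_neg hd, mul_zero]
    · intro h
      exact absurd (Finset.mem_range.2 (Nat.lt_succ_of_le (zcount_le c))) h
  · intro i
    exact span_pow_eq _ _ (hP i)

theorem hcomp_zero_of_low {r d : ℕ} {G : MultilinearMap ℂ
    (fun _ : Fin m => MvPolynomial (Fin (n + 2)) ℂ) ℂ} (hG : Low n b r G) (hd : r < d)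
    (P : Fin m → MvPolynomial (Fin (n + 2)) ℂ) (hP : ∀ i, P i ∈ linS (n + 2) ^ b) :
    hcomp n (m * b) d G P = 0 := by
  apply multilinear_zero_of_span _
    (Set.range (fun c : Fin b → Fin (n + 2) => ∏ j, (X (c j) : MvPolynomial (Fin (n + 2)) ℂ)))
  · intro w hw
    choose c hc using hw
    have hw' : w = mons c := by
      funext i; exact (hc i).symm
    rw [hw', hcomp_mons _ c (zcount_le c)]
    split_ifs with h
    · exact hG c (by omega)
    · rfl
  · intro i
    exact span_pow_eq _ _ (hP i)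

lemma shear_mem {g : MvPolynomial (Fin (n + 2)) ℂ →ₐ[ℂ] MvPolynomial (Fin (n + 2)) ℂ}
    (hg : IsShear (Submodule.span ℂ {(X 0 : MvPolynomial (Fin (n + 2)) ℂ), X 1}) (ZZ n) g)
    (u : MvPolynomial (Fin (n + 2)) ℂ)
    (hu : u ∈ Submodule.span ℂ {(X 0 : MvPolynomial (Fin (n + 2)) ℂ), X 1}) :
    g u ∈ linS (n + 2) := by
  have h1 : g u = u + (g u - u) := by ring
  rw [h1, ← sup_eq]
  exact Submodule.add_mem _ (Submodule.mem_sup_left hu) (Submodule.mem_sup_right (hg.2 u hu))

lemma shear_X_mem {g : MvPolynomial (Fin (n + 2)) ℂ →ₐ[ℂ] MvPolynomial (Fin (n + 2)) ℂ}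
    (hg : IsShear (Submodule.span ℂ {(X 0 : MvPolynomial (Fin (n + 2)) ℂ), X 1}) (ZZ n) g)
    (e : Fin (n + 2)) : g (X e) ∈ linS (n + 2) := by
  revert e
  refine Fin.cases ?_ (fun e => ?_)
  · exact shear_mem hg _ (Submodule.subset_span (Set.mem_insert _ _))
  · revert e
    refine Fin.cases ?_ (fun e => ?_)
    · exact shear_mem hg _ (Submodule.subset_span (Set.mem_insert_of_mem _ rfl))
    · rw [hg.1 _ (Submodule.subset_span ⟨e, rfl⟩)]
      exact X_mem_linS _

lemma shear_X_mem_ZZ {g : MvPolynomial (Fin (n + 2)) ℂ →ₐ[ℂ] MvPolynomial (Fin (n + 2)) ℂ}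
    (hg : IsShear (Submodule.span ℂ {(X 0 : MvPolynomial (Fin (n + 2)) ℂ), X 1}) (ZZ n) g)
    (e : Fin (n + 2)) (he : 2 ≤ (e : ℕ)) : g (X e) ∈ ZZ n := by
  obtain ⟨e', rfl⟩ : ∃ e' : Fin n, e = e'.succ.succ := by
    refine ⟨⟨(e : ℕ) - 2, by omega⟩, Fin.ext ?_⟩
    simp only [Fin.val_succ]
    omega
  have h1 : (X e'.succ.succ : MvPolynomial (Fin (n + 2)) ℂ) ∈ ZZ n :=
    Submodule.subset_span ⟨e', rfl⟩
  rw [hg.1 _ h1]
  exact h1

/-- Low forms stay low under shears. -/
theorem low_shear {r : ℕ} {G : MultilinearMap ℂ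
    (fun _ : Fin m => MvPolynomial (Fin (n + 2)) ℂ) ℂ} (hG : Low n b r G)
    (g : MvPolynomial (Fin (n + 2)) ℂ →ₐ[ℂ] MvPolynomial (Fin (n + 2)) ℂ)
    (hg : IsShear (Submodule.span ℂ {(X 0 : MvPolynomial (Fin (n + 2)) ℂ), X 1}) (ZZ n) g) :
    Low n b r (comp G g) := by
  intro c hc
  have h1 : (fun i => g (mons c i)) =
      fun i => ∏ j, (fun q : Fin m × Fin b => g (X (c q.1 q.2))) (i, j) := by
    funext i
    simp only [mons, map_prod]
  have h2 := hG.vanish (Finset.univ.filter (fun q : Fin m × Fin b =>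
    2 ≤ ((c q.1 q.2 : Fin (n + 2)) : ℕ))) hc (fun q : Fin m × Fin b => g (X (c q.1 q.2)))
    (fun q => shear_X_mem hg _) (fun q hq => shear_X_mem_ZZ hg _ (Finset.mem_filter.1 hq).2)
  rw [comp_apply, h1]
  exact h2

/-- The criterion for `Good`. -/
theorem good_of_low {r : ℕ} {G : MultilinearMap ℂ
    (fun _ : Fin m => MvPolynomial (Fin (n + 2)) ℂ) ℂ} (hG : Low n b r G) :
    Good (Submodule.span ℂ {(X 0 : MvPolynomial (Fin (n + 2)) ℂ), X 1}) (ZZ n) (scal n) b r G := by
  intro g hg P hP
  rw [sup_eq] at hP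
  have hLg := low_shear hG g hg
  refine ⟨∑ d ∈ (Finset.range (m * b + 1)).filter (· ≤ r),
    Polynomial.C (hcomp n (m * b) d (comp G g) P) * Polynomial.X ^ d, ?_, fun t _ => ?_⟩
  · apply Polynomial.natDegree_sum_le_of_forall_le
    intro d hd
    exact (Polynomial.natDegree_C_mul_X_pow_le _ _).trans (Finset.mem_filter.1 hd).2
  · have h1 := comp_scal_eq (comp G g) t P hP
    rw [comp_apply] at h1
    rw [h1, Polynomial.eval_finsetSum]
    simp only [Polynomial.eval_mul, Polynomial.eval_C, Polynomial.eval_pow, Polynomial.eval_X,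
      sum_apply, smul_apply, smul_eq_mul]
    rw [← Finset.sum_filter_of_ne (s := Finset.range (m * b + 1)) (p := (· ≤ r))]
    · exact Finset.sum_congr rfl fun d _ => mul_comm _ _
    · intro d _ hd
      by_contra hrd
      exact hd (by rw [hcomp_zero_of_low hLg (by omega) P hP, mul_zero])

end Vale.Agent.P181.H780
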