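import Vale.Agent.P181.R2.H780.Base

/-!
The canonical map is injective as soon as the canonical kernel vanishes on forms; the recursion
with explicit numbers.
-/

set_option autoImplicit false

open scoped TensorProduct

namespace Vale.Agent.P181.H780

open Vale.Agent.P181

universe u

variable {V : Type u} [AddCommGroup V] [Module ℂ V] [FiniteDimensional ℂ V]

theorem foulkesHowe_injective_of {a b : ℕ} (hcore : NoKer (linFun V) a b) :
    Function.Injective (foulkesHowe a b V) := by
  classical
  rw [injective_iff_map_eq_zero]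
  intro x hx
  have hxs : x ∈ Submodule.span ℂ (Set.range (fun v : Fin a → Fin b → V =>
      SymmetricPower.tprod ℂ (fun i => SymmetricPower.tprod ℂ (v i)))) := by
    rw [span_pure]; trivial
  rw [Finsupp.mem_span_range_iff_exists_finsupp] at hxs
  obtain ⟨l, hl⟩ := hxs
  rw [Finsupp.sum] at hl
  let F : MultilinearMap ℂ (fun _ : Fin a => (V → ℂ)) ℂ := ∑ v ∈ l.support, l v • rowForm v
  have hF : ∀ P, F P = ∑ v ∈ l.support, l v * ∑ σ : Equiv.Perm (Fin a),
      ∏ i, ryser (v (σ i)) (P i) := by
    intro P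
    simp only [sum_apply, smul_apply, rowForm_apply, smul_eq_mul, F]
  have hsymm : IsSymm F := by
    intro τ P
    simp only [F, sum_apply, smul_apply]
    apply Finset.sum_congr rfl
    intro v _
    rw [rowForm_symm v τ P]
  have hK : IsK (linFun V) b F := by
    intro m hm hmL
    obtain ⟨f, hf⟩ := exists_fin_map m b hm
    have hfL : ∀ j, ∃ ξ : Module.Dual ℂ V, f j = fun v => ξ v := by
      intro j
      apply hmL
      rw [hf]
      exact Multiset.mem_map_of_mem f (Finset.mem_univ_val j)
    choose ξ hξ using hfL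
    have hmp : m.prod = ∏ j, (fun v => ξ j v) := by
      rw [hf]
      exact Finset.prod_congr rfl (fun j _ => hξ j)
    have h1 : symEval (fun j => evalPow a (ξ j)) (foulkesHowe a b V x) = 0 := by
      rw [hx, map_zero]
    rw [← hl, map_sum, map_sum] at h1
    simp only [map_smul, symEval_foulkesHowe, smul_eq_mul] at h1
    rw [hF, hmp]
    have h2 : ∀ v : Fin a → Fin b → V, ∑ σ : Equiv.Perm (Fin a),
        ∏ i, ryser (v (σ i)) (∏ j, (fun v => ξ j v)) =
        (Fintype.card (Equiv.Perm (Fin a)) : ℂ) *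
          ∏ i, ryser (v i) (∏ j, (fun v => ξ j v)) := by
      intro v
      have h3 : ∀ σ : Equiv.Perm (Fin a), ∏ i, ryser (v (σ i)) (∏ j, (fun v => ξ j v)) =
          ∏ i, ryser (v i) (∏ j, (fun v => ξ j v)) := fun σ =>
        Equiv.prod_comp σ (fun i => ryser (v i) (∏ j, (fun v => ξ j v)))
      rw [Finset.sum_congr rfl (fun σ _ => h3 σ), Finset.sum_const, nsmul_eq_mul,
        Finset.card_univ]
    simp only [h2]
    have h4 : (Fintype.card (Equiv.Perm (Fin b)) : ℂ) ≠ 0 := by
      exact_mod_cast Fintype.card_ne_zero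
    have h5 : (Fintype.card (Equiv.Perm (Fin b)) : ℂ) *
        ∑ v ∈ l.support, l v * ∏ i, ryser (v i) (∏ j, (fun v => ξ j v)) = 0 := by
      rw [← h1, Finset.mul_sum]
      apply Finset.sum_congr rfl
      intro v _
      ring
    have h6 := (mul_eq_zero.1 h5).resolve_left h4
    calc _ = (Fintype.card (Equiv.Perm (Fin a)) : ℂ) *
        ∑ v ∈ l.support, l v * ∏ i, ryser (v i) (∏ j, (fun v => ξ j v)) := by
          rw [Finset.mul_sum]
          apply Finset.sum_congr rfl
          intro v _
          ring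
      _ = 0 := by rw [h6, mul_zero]
  have hspan : Submodule.span ℂ (Set.range (fun ξ : Fin b → Module.Dual ℂ V =>
      (symEval ξ : (Sym[ℂ]^b V) →ₗ[ℂ] ℂ))) = (⊤ : Submodule ℂ (Module.Dual ℂ (Sym[ℂ]^b V))) := by
    set W := Submodule.span ℂ (Set.range (fun ξ : Fin b → Module.Dual ℂ V =>
      (symEval ξ : (Sym[ℂ]^b V) →ₗ[ℂ] ℂ))) with hW
    have h1 : W.dualCoannihilator = ⊥ := by
      rw [eq_bot_iff]
      intro y hy
      rw [Submodule.mem_dualCoannihilator] at hy
      rw [Submodule.mem_bot]
      apply symEval_separates Set.univ Submodule.span_univ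
      intro lam _
      exact hy _ (Submodule.subset_span ⟨lam, rfl⟩)
    have h2 := Subspace.dualCoannihilator_dualAnnihilator_eq (W := W)
    rw [h1] at h2
    rw [← h2]
    exact Submodule.dualAnnihilator_bot
  apply symEval_separates _ hspan
  intro lam hlam
  choose ξ hξ using hlam
  have hlam' : lam = fun i => symEval (ξ i) := by
    funext i; exact (hξ i).symm
  rw [hlam', ← hl, map_sum]
  have h7 := hcore F hsymm hK (fun i => ∏ j, (fun v => ξ i j v)) (by
    intro i
    exact prod_mem_pow _ _ (fun j => ⟨ξ i j, rfl⟩))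
  rw [← h7, hF]
  apply Finset.sum_congr rfl
  intro v _
  rw [map_smul, smul_eq_mul, symEval_tprod]
  congr 1
  apply Finset.sum_congr rfl
  intro σ _
  apply Finset.prod_congr rfl
  intro i _
  rw [symEval_tprod, ryser_prod]

/-- The recursive bound for a choice `N k` of the degree of the base. -/
def bnd (N : ℕ → ℕ) : ℕ → ℕ
  | 0 => 0
  | k + 1 => max (bnd N k + N k) (max (k * ((N k + 1) / 2)) (k * (N k / 2) + (N k + 1) / 2))

/-- **Conditional theorem.** If for every `0 < k < a` the tail statement holds for `k + 1` at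
`(N k, N k)`, with `k ≤ N k`, then the canonical map is injective from `bnd N a` on. -/
theorem injective_of_tail {a b : ℕ} (N : ℕ → ℕ) (hN : ∀ k, 0 < k → k < a → k ≤ N k ∧
    Tail3 (k + 1) (N k) (N k)) (hb : bnd N a ≤ b) : Function.Injective (foulkesHowe a b V) := by
  refine foulkesHowe_injective_of (chain3 (hasRoots_of_forall_field (linFun V))
    (fun k => (N k + 1) / 2) (fun k => N k / 2) (bnd N) a ?_ ?_ b hb)
  · intro k _ _
    have h1 : (N k + 1) / 2 + N k / 2 = N k := by omega
    refine ⟨?_, ?_, ?_⟩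
    · rw [h1]; exact le_max_left _ _
    · exact (le_max_left _ _).trans (le_max_right _ _)
    · exact (le_max_right _ _).trans (le_max_right _ _)
  · intro k hk hka
    right
    have h1 : (N k + 1) / 2 + N k / 2 = N k := by omega
    rw [h1]
    exact hN k hk hka

/-- A linear base `N k ≤ (3 k) / 2 + C` gives the quadratic bound `3 a ^ 2 / 4 + C' a`. -/
theorem bnd_le {N : ℕ → ℕ} {C : ℕ} (hN : ∀ k, 2 * N k ≤ 3 * k + 2 * C) (a : ℕ) :
    4 * bnd N a ≤ 3 * a ^ 2 + (4 * C + 4) * a := by
  induction a with
  | zero => simp [bnd]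
  | succ k ih =>
    rw [bnd]
    have h := hN k
    have h1 : 2 * ((N k + 1) / 2) ≤ N k + 1 := by omega
    have h2 : 2 * (N k / 2) ≤ N k := by omega
    rcases max_choice (bnd N k + N k) (max (k * ((N k + 1) / 2)) (k * (N k / 2) + (N k + 1) / 2))
      with h3 | h3
    · rw [h3]; nlinarith
    · rw [h3]
      rcases max_choice (k * ((N k + 1) / 2)) (k * (N k / 2) + (N k + 1) / 2) with h4 | h4
      · rw [h4]
        have h5 : 2 * (k * ((N k + 1) / 2)) ≤ k * (N k + 1) := by nlinarith
        nlinarith
      · rw [h4]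
        have h5 : 2 * (k * (N k / 2)) ≤ k * N k := by nlinarith
        nlinarith

end Vale.Agent.P181.H780
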