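import Vale.Agent.P181.Bdl.B1

set_option autoImplicit false

open Polynomial Finset

namespace Vale.Agent.P181.H780

open Vale.Agent.P181

variable {A : Type*} [CommRing A] [Algebra ℂ A]

/-- The base statement for a fixed element `Q` of degree `N`: every symmetric `(k+1)`-linear form
that vanishes on the diagonal at all products of `N` linear forms vanishes at `(h, Q, ..., Q)`. -/
def BaseAt (L : Submodule ℂ A) (k N : ℕ) (Q : A) : Prop :=
  ∀ G : MultilinearMap ℂ (fun _ : Fin (k + 1) => A) ℂ, IsSymm G → IsK L N G →
    ∀ h ∈ L ^ N, G.curryLeft h (fun _ => Q) = 0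

/-- **Lemma C with a general first factor.** -/
theorem lemmaC2 {L : Submodule ℂ A} {k N : ℕ} (hkN : k ≤ N) {b : ℕ} {Q : A}
    (hbase : BaseAt L k N Q)
    (F : MultilinearMap ℂ (fun _ : Fin (k + 1) => A) ℂ) (hs : IsSymm F) (hK : IsK L b F)
    (S : Multiset A) : (∀ x ∈ S, x ∈ L) →
    ∀ (R : Multiset A), (∀ x ∈ R, x ∈ L) → N + S.card + R.card = b →
      ∀ h ∈ L ^ (N + S.card),
        F.curryLeft (h * R.prod) (fun _ => Q * (S.prod * R.prod)) = 0 := by
  induction S using Multiset.induction with
  | empty =>
    intro _ R hR hb h hh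
    simp only [Multiset.card_zero, add_zero, Multiset.prod_zero, one_mul] at hb hh ⊢
    have hG := hbase (mulArg F (fun _ => R.prod)) (hs.mulArg_const _) ?_ h hh
    · rw [MultilinearMap.curryLeft_apply, mulArg_apply] at hG
      rw [MultilinearMap.curryLeft_apply, ← hG]
      congr 1
      funext i
      refine Fin.cases ?_ (fun i => ?_) i
      · rw [Fin.cons_zero, Fin.cons_zero, mul_comm]
      · rw [Fin.cons_succ, Fin.cons_succ, mul_comm]
    · intro m hm hmL
      rw [mulArg_apply]
      have h2 := hK (R + m) (by rw [Multiset.card_add, hm]; omega) (by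
        intro x hx
        rcases Multiset.mem_add.1 hx with h | h
        · exact hR x h
        · exact hmL x h)
      rw [← h2]
      congr 1
      funext i
      rw [Multiset.prod_add]
  | cons η S ih =>
    intro hS R hR hb h hh
    have hη : η ∈ L := hS η (Multiset.mem_cons_self η S)
    have hS' : ∀ x ∈ S, x ∈ L := fun x hx => hS x (Multiset.mem_cons_of_mem hx)
    rw [Multiset.card_cons] at hb hh
    set s := S.card with hs'
    rw [Multiset.prod_cons]
    let φ : A →ₗ[ℂ] ℂ := (F.toLinearMap (Fin.cons 0 (fun _ => Q * (η * S.prod * R.prod))) 0) ∘ₗ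
      (LinearMap.mulRight ℂ R.prod)
    have hφ : ∀ z, φ z =
        F.curryLeft (z * R.prod) (fun _ => Q * (η * S.prod * R.prod)) := by
      intro z
      change F (Function.update (Fin.cons 0 (fun _ => Q * (η * S.prod * R.prod))) 0
        (z * R.prod)) = _
      rw [Fin.update_cons_zero]
      rfl
    have hle : L ^ (N + (s + 1)) ≤ LinearMap.ker φ := by
      refine (pow_le_span_pow L _).trans ?_
      rw [Submodule.span_le]
      rintro _ ⟨θ, hθ, rfl⟩
      simp only [SetLike.mem_coe, LinearMap.mem_ker]
      rw [hφ]
      set ζ : A := η - θ with hζ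
      have hζL : ζ ∈ L := L.sub_mem hη hθ
      set M : ℕ := N + (s + 1) with hM
      let u : ℂ → A := fun t => (θ + t • ζ) ^ 1 * (Q * (S.prod * R.prod))
      have huc : ∀ _ : Fin k, IsCurve 1 u := fun _ => isCurve_pow θ ζ _ 1
      obtain ⟨p, hpd, hp⟩ := exists_poly (F.curryLeft (θ ^ M * R.prod)) (fun _ => u)
        (fun _ => 1) huc
      obtain ⟨q, -, hq⟩ := exists_poly (F.curryLeft (ζ ^ M * R.prod)) (fun _ => u)
        (fun _ => 1) huc
      have hpq : p = C ((-1) ^ M) * X ^ M * q := by
        apply Polynomial.funext
        intro t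
        have hL' : θ + t • ζ ∈ L := L.add_mem hθ (L.smul_mem _ hζL)
        have hIH := ih hS' ((θ + t • ζ) ::ₘ R) (by
          intro x hx
          rcases Multiset.mem_cons.1 hx with h | h
          · rw [h]; exact hL'
          · exact hR x h) (by rw [Multiset.card_cons]; omega)
        rw [Multiset.prod_cons] at hIH
        have hu : (fun _ : Fin k => u t) =
            fun _ => Q * (S.prod * ((θ + t • ζ) * R.prod)) := by
          funext _
          simp only [u]
          ring
        rw [eval_mul, eval_mul, eval_C, eval_pow, eval_X, hp, hq, hu]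
        let ψ : A →ₗ[ℂ] ℂ :=
          (F.toLinearMap (Fin.cons 0 (fun _ => Q * (S.prod * ((θ + t • ζ) * R.prod)))) 0) ∘ₗ
          (LinearMap.mulRight ℂ R.prod)
        have hψ : ∀ z, ψ z = F.curryLeft (z * R.prod)
            (fun _ => Q * (S.prod * ((θ + t • ζ) * R.prod))) := by
          intro z
          change F (Function.update (Fin.cons 0
            (fun _ => Q * (S.prod * ((θ + t • ζ) * R.prod)))) 0 (z * R.prod)) = _
          rw [Fin.update_cons_zero]
          rfl
        rw [← hψ, ← hψ]
        have h3 : θ ^ M = ∑ l ∈ range (M + 1), (((M.choose l : ℂ) * (-1) ^ l * t ^ l) •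
            ((θ + t • ζ) ^ (M - l) * ζ ^ l)) := by
          have h4 : θ = (-t) • ζ + (θ + t • ζ) := by
            rw [neg_smul]; abel
          calc θ ^ M = ((-t) • ζ + (θ + t • ζ)) ^ M := by rw [← h4]
            _ = _ := by
              rw [add_pow]
              apply Finset.sum_congr rfl
              intro l _
              simp only [Algebra.smul_def, map_natCast, map_pow, map_mul, map_neg, map_one]
              rw [neg_mul, neg_pow]
              ring_nf
        rw [h3, map_sum, Finset.sum_range_succ]
        rw [Finset.sum_eq_zero, zero_add]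
        · rw [map_smul, Nat.choose_self, Nat.sub_self, pow_zero, one_mul, smul_eq_mul,
            Nat.cast_one, one_mul]
        · intro l hl
          rw [Finset.mem_range] at hl
          rw [map_smul, hψ]
          have h5 : (θ + t • ζ) ^ (M - l) * ζ ^ l * R.prod =
              ((θ + t • ζ) ^ (M - l - 1) * ζ ^ l) * ((θ + t • ζ) * R.prod) := by
            have h6 : M - l = (M - l - 1) + 1 := by omega
            conv_lhs => rw [h6, pow_succ]
            ring
          rw [h5, hIH, smul_zero]
          have h7 : N + s = (M - l - 1) + l := by omega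
          rw [h7, pow_add]
          exact Submodule.mul_mem_mul (Submodule.pow_mem_pow _ hL' _)
            (Submodule.pow_mem_pow _ hζL _)
      have hdvd : X ^ M ∣ p := by
        rw [hpq, mul_comm (C _) (X ^ M), mul_assoc]
        exact Dvd.intro _ rfl
      have hp0 : p = 0 := by
        apply Polynomial.eq_zero_of_dvd_of_natDegree_lt hdvd
        rw [natDegree_X_pow]
        refine lt_of_le_of_lt hpd ?_
        simp only [Finset.sum_const, Finset.card_univ, Fintype.card_fin, smul_eq_mul, mul_one]
        omega
      have h8 := hp 1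
      rw [hp0, eval_zero] at h8
      rw [h8]
      congr 1
      funext _
      simp only [u, hζ, one_smul, add_sub_cancel, pow_one]
      ring
    have h9 := hle hh
    rw [LinearMap.mem_ker, hφ] at h9
    exact h9

/-- The one-letter base. -/
theorem baseAt_pow {L : Submodule ℂ A} (hL : HasRoots L) {k : ℕ} (hk : 0 < k) {ξ : A}
    (hξ : ξ ∈ L) : BaseAt L k k (ξ ^ k) := by
  intro G hs hK h hh
  have h1 := lemmaC hL hk G hs hK hξ 0 (by simp) 0 (by simp) (by simp) h (by simpa using hh)
  simpa using h1

end Vale.Agent.P181.H780
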