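import Vale.Agent.P181.R2.H780.PartSumHW2

/-!
The linear form of the numerical condition on the partial sums.
-/

set_option autoImplicit false

namespace Vale.Agent.P181.H780

lemma part_num {s m u w : ℤ} (hw : 0 ≤ w) (hu : 0 < u) (h1 : 2 * s + 2 * m * (u + w) ≤
    (u + w + 1) * (u + w)) (h2 : 2 * s < u * (u - 1)) : 2 * s + 2 * (m - w) * u ≤ (u + 1) * u := by
  by_contra hc
  push Not at hc
  have h3 : (u + w) * ((u + 1) * u) < (u + w) * (2 * s + 2 * (m - w) * u) :=
    mul_lt_mul_of_pos_left hc (by linarith)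
  have h4 : u * (2 * s + 2 * m * (u + w)) ≤ u * ((u + w + 1) * (u + w)) :=
    mul_le_mul_of_nonneg_left h1 hu.le
  have h5 : w * (2 * s) ≤ w * (u * (u - 1)) := mul_le_mul_of_nonneg_left h2.le hw
  have h6 : 0 ≤ w * (u * (w + 1)) := by positivity
  nlinarith

lemma part_sum {s B t c : ℕ} (h : 2 * s + 2 * (c * (t + 1)) ≤ B * 2) :
    c * (2 * s) ≤ ∑ l ∈ Finset.range c, (s + B + 1 - (l + 1) * (t + 1)) := by
  have h5 : ∑ _l ∈ Finset.range c, (2 * s) = c * (2 * s) := by
    rw [Finset.sum_const, Finset.card_range, smul_eq_mul]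
  rw [← h5]
  apply Finset.sum_le_sum
  intro l hl
  rw [Finset.mem_range] at hl
  have h6 : (l + 1) * (t + 1) ≤ c * (t + 1) := Nat.mul_le_mul_right _ (by omega)
  generalize (l + 1) * (t + 1) = q at h6 ⊢
  generalize c * (t + 1) = q' at h6 h
  omega

lemma part_fin {s B m w r T : ℕ} (h1 : r ≤ (m + 1) * (2 * s)) (h5 : 2 * s + 2 ≤ s + B + 1)
    (h4 : (m - w) * (2 * s) ≤ T) :
    r < min (m + 1) (w + 1) * (s + B + 1) + T := by
  have h6 : min (m + 1) (w + 1) * (2 * s + 2) ≤ min (m + 1) (w + 1) * (s + B + 1) :=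
    Nat.mul_le_mul_left _ h5
  have h7 : min (m + 1) (w + 1) + (m - w) = m + 1 := by omega
  have h8 : (m + 1) * (2 * s) = min (m + 1) (w + 1) * (2 * s) + (m - w) * (2 * s) := by
    rw [← add_mul, h7]
  have h9 : 1 ≤ min (m + 1) (w + 1) := by omega
  have h10 : min (m + 1) (w + 1) * (2 * s + 2) =
      min (m + 1) (w + 1) * (2 * s) + min (m + 1) (w + 1) * 2 := by ring
  omega

/-- The linear form of the condition. -/
theorem partCond_linear {a b s j : ℕ} {ρ : ℕ → ℕ} (hb : b = s + a * (a - 1) / 2) (hj : 1 ≤ j)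
    (hjb : b + (j - 1) * (a - 1) ≤ a * (a - 1)) (hρ : ρ j + j * (a * (a - 1)) ≤ j * (2 * b)) :
    PartCond a s ρ := by
  intro i hi hia hs
  obtain ⟨v, rfl⟩ : ∃ v, a = v + 1 := ⟨a - 1, by omega⟩
  obtain ⟨m, rfl⟩ : ∃ m, j = m + 1 := ⟨j - 1, by omega⟩
  obtain ⟨u, rfl⟩ : ∃ u, i = u + 1 := ⟨i - 1, by omega⟩
  rw [Nat.add_sub_cancel, Nat.add_sub_cancel] at hjb
  rw [Nat.add_sub_cancel] at hb hρ
  have hu1 : u + 1 - 1 = u := Nat.add_sub_cancel u 1
  have hu2 : u + 1 - 2 = u - 1 := rfl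
  rw [hu1, hu2] at hs ⊢
  obtain ⟨w, rfl⟩ : ∃ w, v = u + w := ⟨v - u, by omega⟩
  have hev : (u + w + 1) * (u + w) / 2 * 2 = (u + w + 1) * (u + w) :=
    Nat.div_mul_cancel (by
      have := (Nat.even_mul_succ_self (u + w)).two_dvd; rwa [mul_comm] at this)
  have hev2 : (u + 1) * u / 2 * 2 = (u + 1) * u :=
    Nat.div_mul_cancel (by
      have := (Nat.even_mul_succ_self u).two_dvd; rwa [mul_comm] at this)
  obtain ⟨t, rfl⟩ : ∃ t, u = t + 1 := ⟨u - 1, by omega⟩
  have ht1 : t + 1 - 1 = t := Nat.add_sub_cancel t 1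
  rw [ht1] at hs ⊢
  have hev3 : (t + 1) * t / 2 * 2 = (t + 1) * t :=
    Nat.div_mul_cancel (by
      have := (Nat.even_mul_succ_self t).two_dvd; rwa [mul_comm] at this)
  have hE : t + 1 + w + 1 - (t + 1 + 1) + 1 = w + 1 := by omega
  rw [hE]
  set B := (t + 1 + w + 1) * (t + 1 + w) / 2 with hB
  set B1 := (t + 1 + 1) * (t + 1) / 2 with hB1
  set B2 := (t + 1) * t / 2 with hB2
  have hkey : 2 * s + 2 * (m - w) * (t + 1) ≤ (t + 1 + 1) * (t + 1) := by
    by_cases hmw : m ≤ w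
    · rw [show m - w = 0 by omega]
      nlinarith
    · push Not at hmw
      have h1 := part_num (s := s) (m := m) (u := t + 1) (w := w) (by positivity) (by positivity)
        (by
          have h2 : 2 * s + 2 * m * (t + 1 + w) ≤ (t + 1 + w + 1) * (t + 1 + w) := by nlinarith
          exact_mod_cast h2) (by
          have h2 : (2 * s : ℤ) < (t + 1) * t := by exact_mod_cast hs
          nlinarith)
      have h2 : ((m - w : ℕ) : ℤ) = (m : ℤ) - w := by
        rw [Nat.cast_sub (by omega)]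
      have h3 : ((2 * s + 2 * (m - w : ℕ) * (t + 1) : ℕ) : ℤ) ≤
          (((t + 1 + 1) * (t + 1) : ℕ) : ℤ) := by
        push_cast
        rw [h2]
        linarith
      exact_mod_cast h3
  refine ⟨m + 1, ?_, ?_⟩
  · -- `j ≤ a`
    by_contra hc
    push Not at hc
    nlinarith
  · have h1 : ρ (m + 1) ≤ (m + 1) * (2 * s) := by
      have h2 : (m + 1) * (2 * b) = (m + 1) * (2 * s) +
          (m + 1) * ((t + 1 + w + 1) * (t + 1 + w)) := by
        rw [hb, ← hev]; ring
      omega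
    have h3 : m + 1 - (w + 1) = m - w := by omega
    rw [h3]
    have h4 : 2 * s + 2 * ((m - w) * (t + 1)) ≤ B1 * 2 := by
      rw [hev2, ← mul_assoc]
      exact hkey
    exact part_fin h1 (by omega) (part_sum h4)

end Vale.Agent.P181.H780
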