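import Vale.Agent.P181.H536.Row3

/-!
Kernel elements of the canonical map whose arguments have few letters outside a fixed line, for
every number of slots.
-/

set_option autoImplicit false

open Polynomial

namespace Vale.Agent.P181.H780

open Vale.Agent.P181 Vale.Agent.P181.H534 Vale.Agent.P181.H536

variable {A : Type*} [CommRing A] [Algebra ℂ A]

/-- For a set `S` of slots, and `e' ≤ e` further slots of degree at least `D`, the form vanishes
when the total `Z`-degree is above `ρ` of the number of slots. -/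
def BD (L Z : Submodule ℂ A) (b : ℕ) (ρ : ℕ → ℕ) (e D : ℕ) {m : ℕ}
    (G : MultilinearMap ℂ (fun _ : Fin m => A) ℂ) : Prop :=
  ∀ (e' : ℕ) (S : Finset (Fin m)) (d : Fin m → ℕ), e' ≤ e → (∀ i, d i ≤ b) → ∀ P : Fin m → A,
    (∀ i, P i ∈ Z ^ d i * L ^ (b - d i)) → ρ (S.card + e') < ∑ i ∈ S, d i + e' * D → G P = 0

lemma BD.mono {L Z : Submodule ℂ A} {b e D D' m : ℕ} {ρ : ℕ → ℕ}
    {G : MultilinearMap ℂ (fun _ : Fin m => A) ℂ} (hG : BD L Z b ρ e D G) (hD : D' ≤ D) :
    BD L Z b ρ e D' G := by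
  intro e' S d he hd P hP hlt
  refine hG e' S d he hd P hP (lt_of_lt_of_le hlt ?_)
  exact Nat.add_le_add_left (Nat.mul_le_mul_left _ hD) _

lemma BD.curry {L Z : Submodule ℂ A} {b e D m : ℕ} {ρ : ℕ → ℕ}
    {G : MultilinearMap ℂ (fun _ : Fin (m + 1) => A) ℂ} (hG : BD L Z b ρ e D G) {P₀ : A}
    (hD : D ≤ b) (hP₀ : P₀ ∈ Z ^ D * L ^ (b - D)) : BD L Z b ρ (e + 1) D (G.curryLeft P₀) := by
  classical
  intro e'' S d he hd P hP hlt
  rw [MultilinearMap.curryLeft_apply]
  have hmem : ∀ i : Fin (m + 1), (Fin.cons P₀ P : Fin (m + 1) → A) i ∈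
      Z ^ (Fin.cons D d : Fin (m + 1) → ℕ) i * L ^ (b - (Fin.cons D d : Fin (m + 1) → ℕ) i) := by
    intro i
    refine Fin.cases ?_ (fun i => ?_) i
    · exact hP₀
    · exact hP i
  have hdb : ∀ i : Fin (m + 1), (Fin.cons D d : Fin (m + 1) → ℕ) i ≤ b := by
    intro i
    refine Fin.cases ?_ (fun i => ?_) i
    · exact hD
    · exact hd i
  have hsum : ∑ i ∈ S.map (Fin.succEmb m), (Fin.cons D d : Fin (m + 1) → ℕ) i = ∑ i ∈ S, d i := by
    rw [Finset.sum_map]
    rfl
  rcases e'' with _ | e'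
  · refine hG 0 (S.map (Fin.succEmb m)) (Fin.cons D d) (Nat.zero_le _) hdb _ hmem ?_
    rw [Finset.card_map, hsum]
    simpa using hlt
  · refine hG e' (insert 0 (S.map (Fin.succEmb m))) (Fin.cons D d) (by omega) hdb _ hmem ?_
    have h0 : (0 : Fin (m + 1)) ∉ S.map (Fin.succEmb m) := by
      rw [Finset.mem_map]
      rintro ⟨i, _, hi⟩
      exact Fin.succ_ne_zero i hi
    rw [Finset.card_insert_of_notMem h0, Finset.sum_insert h0, Finset.card_map, hsum,
      Fin.cons_zero]
    have h1 : S.card + 1 + e' = S.card + (e' + 1) := by ring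
    have h2 : D + ∑ i ∈ S, d i + e' * D = ∑ i ∈ S, d i + (e' + 1) * D := by ring
    rw [h1, h2]
    exact hlt

lemma BD.mul {L Z : Submodule ℂ A} {b k e D m : ℕ} {ρ : ℕ → ℕ}
    {G : MultilinearMap ℂ (fun _ : Fin m => A) ℂ} (hG : BD L Z b ρ e D G) {θ : A} (hθ : θ ∈ L)
    (hk : k ≤ b) : BD L Z (b - k) ρ e D (mulArg G (fun _ => θ ^ k)) := by
  intro e' S d he hd P hP hlt
  rw [mulArg_apply]
  refine hG e' S d he (fun i => (hd i).trans (Nat.sub_le _ _)) _ (fun i => ?_) hlt
  have h1 : b - d i = k + (b - k - d i) := by have := hd i; omega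
  rw [h1, pow_add, mul_left_comm]
  exact Submodule.mul_mem_mul (Submodule.pow_mem_pow _ hθ _) (hP i)

/-- Sorted monomials. -/
lemma key_part {p : A} {L Z : Submodule ℂ A} (hp : p ∈ L) (hZL : Z ≤ L) (hroot : HasRoots L)
    {k b e D j : ℕ} {ρ : ℕ → ℕ} (hkb : k + 1 ≤ b)
    (ih : ∀ (D : ℕ) (F : MultilinearMap ℂ (fun _ : Fin (k + 1) => A) ℂ), IsSymm F →
      IsK L (b - (k + 1)) F → BD L Z (b - (k + 1)) ρ (e + 1) D F → ZD L Z (b - (k + 1)) D F →
      ∀ P : Fin (k + 1) → A, (∀ i, P i ∈ L ^ (b - (k + 1))) → F P = 0)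
    (F : MultilinearMap ℂ (fun _ : Fin (k + 1 + 1) => A) ℂ) (hs : IsSymm F) (hK : IsK L b F)
    (hZ : BD L Z b ρ e D F) (hZD : ZD L Z b D F)
    (hj : j ≤ e + k + 2)
    (hρ : ρ j < min j (e + 1) * (b - (k + 1) + 1) +
      ∑ l ∈ Finset.range (j - (e + 1)), (b + 1 - (l + 1) * (k + 1)))
    (d : Fin (k + 1 + 1) → ℕ) (hdb : ∀ i, d i ≤ b) (hd : Antitone d) (hd0 : d 0 = D)
    (w : Fin (k + 1 + 1) → A) (hw : ∀ i, w i ∈ Z ^ d i) :
    F (fun i => p ^ (b - d i) * w i) = 0 := by
  classical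
  have hmem : ∀ i, p ^ (b - d i) * w i ∈ L ^ b := by
    intro i
    have h1 : b = (b - d i) + d i := by have := hdb i; omega
    have h2 : p ^ (b - d i) * w i ∈ L ^ (b - d i) * L ^ d i :=
      Submodule.mul_mem_mul (Submodule.pow_mem_pow _ hp _) (pow_le_pow_left' hZL _ (hw i))
    rw [← pow_add, ← h1] at h2
    exact h2
  by_cases hex : ∃ i : Fin (k + 1), d i.succ + ((i : ℕ) + 1) * (k + 1) ≤ b
  · have h1 : (fun i => p ^ (b - d i) * w i) = (Fin.cons (p ^ (b - d 0) * w 0)
        (fun i : Fin (k + 1) => p ^ (b - d i.succ) * w i.succ) : Fin (k + 1 + 1) → A) := by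
      funext i
      refine Fin.cases ?_ (fun i => ?_) i
      · rfl
      · rfl
    rw [h1, ← MultilinearMap.curryLeft_apply]
    have hT : ∀ θ ∈ L, ∀ f : Fin (k + 1) → A, (∀ i, f i ∈ L ^ (b - (k + 1))) →
        F.curryLeft (p ^ (b - d 0) * w 0) (fun i => θ ^ (k + 1) * f i) = 0 := by
      intro θ hθ f hf
      have h2 := ih D
        (mulArg (F.curryLeft (p ^ (b - d 0) * w 0)) (fun _ => θ ^ (k + 1)))
        ((hs.curryLeft _).mulArg_const _) ?_ ?_ ?_ f hf
      · exact h2
      · intro m hm hmL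
        rw [mulArg_apply]
        have h4 := lemmaC hroot (Nat.succ_pos k) F hs hK hθ m hmL 0 (by simp) (by
          rw [Multiset.card_zero, hm]; omega) (p ^ (b - d 0) * w 0) (by
          have h5 : k + 1 + m.card = b := by omega
          rw [h5]; exact hmem 0)
        simpa only [MultilinearMap.curryLeft_apply, Nat.succ_eq_add_one, Multiset.prod_zero,
          mul_one] using h4
      · refine BD.mul (BD.curry hZ ?_ ?_) hθ (by omega)
        · rw [← hd0]; exact hdb 0
        · rw [← hd0]; exact mono_mem hp (hw 0)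
      · exact ZD.mul (ZD.curry hZD (hmem 0)) hθ hkb
    -- a small slot
    obtain ⟨i, hi⟩ := hex
    have hcard : (Finset.univ.filter (fun j : Fin (k + 1) => j < i)).card = (i : ℕ) := by
      rw [show (Finset.univ.filter (fun j : Fin (k + 1) => j < i)) = Finset.Iio i by ext; simp]
      exact Fin.card_Iio i
    apply free_div (L := L) (κ := k + 1) (c := ((i : ℕ) + 1) * (k + 1)) (b := b)
      (F.curryLeft (p ^ (b - d 0) * w 0))
      (Finset.univ.filter (fun j : Fin (k + 1) => j < i)) (by rw [hcard]) (by omega) hT hp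
    · intro j _
      exact hmem j.succ
    · intro j hj
      have hij : i ≤ j := by
        simpa using hj
      have h2 : d j.succ ≤ d i.succ := hd (Fin.succ_le_succ_iff.2 hij)
      refine ⟨p ^ (b - ((i : ℕ) + 1) * (k + 1) - d j.succ) * w j.succ, ?_, ?_⟩
      · have h3 : b - ((i : ℕ) + 1) * (k + 1) =
            (b - ((i : ℕ) + 1) * (k + 1) - d j.succ) + d j.succ := by omega
        rw [h3, pow_add]
        refine Submodule.mul_mem_mul ?_ (pow_le_pow_left' hZL _ (hw _))
        rw [Nat.add_sub_cancel]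
        exact Submodule.pow_mem_pow _ hp _
      · rw [← mul_assoc, ← pow_add]
        congr 2
        omega
  · push Not at hex
    -- all slots are large: the class property applies
    have hD : b - (k + 1) + 1 ≤ D := by
      have h5 := hex 0
      have h6 : d (Fin.succ 0) ≤ d 0 := hd (Fin.zero_le _)
      have h8 : ((0 : Fin (k + 1)) : ℕ) = 0 := rfl
      rw [h8, zero_add, one_mul] at h5
      omega
    by_cases hje : j ≤ e
    · -- only the earlier slots
      refine hZ j ∅ d hje hdb _ (fun i => mono_mem hp (hw i)) ?_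
      rw [Finset.card_empty, Finset.sum_empty, zero_add, zero_add]
      refine lt_of_lt_of_le hρ ?_
      rw [min_eq_left (by omega), show j - (e + 1) = 0 by omega, Finset.sum_range_zero, add_zero]
      exact Nat.mul_le_mul_left _ hD
    · push Not at hje
      obtain ⟨q, hq⟩ : ∃ q, j = e + 1 + q := ⟨j - (e + 1), by omega⟩
      have hqk : q + 1 ≤ k + 1 + 1 := by omega
      let S : Finset (Fin (k + 1 + 1)) := Finset.univ.map (Fin.castLEEmb hqk)
      have hS : S.card = q + 1 := by
        rw [Finset.card_map, Finset.card_univ, Fintype.card_fin]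
      have hsumS : ∑ i ∈ S, d i = d 0 + ∑ l ∈ Finset.range q, (if h : l < k + 1 then
          d (Fin.succ ⟨l, h⟩) else 0) := by
        rw [Finset.sum_map, Fin.sum_univ_succ, ← Fin.sum_univ_eq_sum_range
          (fun l => if h : l < k + 1 then d (Fin.succ ⟨l, h⟩) else 0) q]
        congr 1
        apply Finset.sum_congr rfl
        intro l _
        have hl : (l : ℕ) < k + 1 := by have := l.2; omega
        rw [dif_pos hl]
        rfl
      refine hZ e S d le_rfl hdb _ (fun i => mono_mem hp (hw i)) ?_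
      rw [hS, show q + 1 + e = j by omega]
      refine lt_of_lt_of_le hρ ?_
      rw [min_eq_right (by omega), show j - (e + 1) = q by omega, hsumS, hd0]
      have h1 : ∑ l ∈ Finset.range q, (b + 1 - (l + 1) * (k + 1)) ≤
          ∑ l ∈ Finset.range q, (if h : l < k + 1 then d (Fin.succ ⟨l, h⟩) else 0) := by
        apply Finset.sum_le_sum
        intro l hl
        rw [Finset.mem_range] at hl
        have hl' : l < k + 1 := by omega
        rw [dif_pos hl']
        have h2 := hex ⟨l, hl'⟩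
        simp only at h2
        omega
      have h2 : (e + 1) * (b - (k + 1) + 1) ≤ (e + 1) * D := Nat.mul_le_mul_left _ hD
      have h3 : (e + 1) * D = D + e * D := by ring
      omega

lemma part_step {p : A} {L Z : Submodule ℂ A} (hL : L = Submodule.span ℂ {p} ⊔ Z)
    (hroot : HasRoots L) {k b e j : ℕ} {ρ : ℕ → ℕ} (hkb : k + 1 ≤ b)
    (ih : ∀ (D : ℕ) (F : MultilinearMap ℂ (fun _ : Fin (k + 1) => A) ℂ), IsSymm F →
      IsK L (b - (k + 1)) F → BD L Z (b - (k + 1)) ρ (e + 1) D F → ZD L Z (b - (k + 1)) D F →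
      ∀ P : Fin (k + 1) → A, (∀ i, P i ∈ L ^ (b - (k + 1))) → F P = 0)
    (hj : j ≤ e + k + 2)
    (hρ : ρ j < min j (e + 1) * (b - (k + 1) + 1) +
      ∑ l ∈ Finset.range (j - (e + 1)), (b + 1 - (l + 1) * (k + 1)))
    (F : MultilinearMap ℂ (fun _ : Fin (k + 1 + 1) => A) ℂ) (hs : IsSymm F) (hK : IsK L b F)
    (D : ℕ) (hZ : BD L Z b ρ e D F) (hZD : ZD L Z b D F) :
    ∀ P : Fin (k + 1 + 1) → A, (∀ i, P i ∈ L ^ b) → F P = 0 := by
  classical
  have hp : p ∈ L := by
    rw [hL]; exact Submodule.mem_sup_left (Submodule.mem_span_singleton_self p)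
  have hZL : Z ≤ L := by rw [hL]; exact le_sup_right
  -- a monomial input whose largest degree is `D`
  have main : ∀ D : ℕ, ZD L Z b D F → BD L Z b ρ e D F → ∀ (d : Fin (k + 1 + 1) → ℕ)
      (w : Fin (k + 1 + 1) → A), (∀ i, d i ≤ b) → (∀ i, w i ∈ Z ^ d i) → (∀ i, d i ≤ D) →
      (∃ i, d i = D) → F (fun i => p ^ (b - d i) * w i) = 0 := by
    intro D hZD hBD d w hdb hw hdD hex
    let σ : Equiv.Perm (Fin (k + 1 + 1)) := Tuple.sort (fun i => OrderDual.toDual (d i))
    have hσ : Antitone (fun i => d (σ i)) := by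
      intro i j hij
      exact Tuple.monotone_sort (fun i => OrderDual.toDual (d i)) hij
    have h0 : d (σ 0) = D := by
      obtain ⟨i, hi⟩ := hex
      apply le_antisymm (hdD _)
      rw [← hi]
      have h1 : d (σ (σ.symm i)) ≤ d (σ 0) := hσ (Fin.zero_le _)
      rwa [Equiv.apply_symm_apply] at h1
    have h1 := key_part hp hZL hroot hkb ih F hs hK hBD hZD hj hρ (fun i => d (σ i))
      (fun i => hdb _) hσ h0 (fun i => w (σ i)) (fun i => hw _)
    rw [← h1]
    exact (hs σ (fun i => p ^ (b - d i) * w i)).symm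
  have hmm : ∀ (d : ℕ) (w : A), d ≤ b → w ∈ Z ^ d → p ^ (b - d) * w ∈ L ^ b := by
    intro d w hd hw
    have h1 : b = (b - d) + d := by omega
    have h2 : p ^ (b - d) * w ∈ L ^ (b - d) * L ^ d :=
      Submodule.mul_mem_mul (Submodule.pow_mem_pow _ hp _) (pow_le_pow_left' hZL _ hw)
    rw [← pow_add, ← h1] at h2
    exact h2
  have hbig : ∀ D : ℕ, ZD L Z b D F → ∀ (d : Fin (k + 1 + 1) → ℕ) (w : Fin (k + 1 + 1) → A),
      (∀ i, d i ≤ b) → (∀ i, w i ∈ Z ^ d i) → (∃ i, D < d i) →
      F (fun i => p ^ (b - d i) * w i) = 0 := by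
    intro D hZD d w hdb hw hex
    obtain ⟨i, hi⟩ := hex
    have hib := hdb i
    apply hZD i _ (by omega) (fun i => hmm _ _ (hdb i) (hw i))
    have h1 : d i = (D + 1) + (d i - (D + 1)) := by omega
    have h2 : w i ∈ Z ^ (D + 1) * Z ^ (d i - (D + 1)) := by
      rw [← pow_add, ← h1]; exact hw i
    have h3 : b - (D + 1) = (d i - (D + 1)) + (b - d i) := by omega
    rw [mul_comm (p ^ (b - d i)) (w i), h3, pow_add L, ← mul_assoc]
    refine Submodule.mul_mem_mul ?_ (Submodule.pow_mem_pow _ hp _)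
    exact (mul_le_mul' (le_refl _) (pow_le_pow_left' hZL _)) h2
  induction D with
  | zero =>
    intro P hP
    apply multilinear_zero_of_span' F (fun _ => Mono p Z b 0)
    · intro w hw
      choose d v _ hdb hv hx using hw
      have h1 : w = fun i => p ^ (b - d i) * v i := funext hx
      rw [h1]
      by_cases hbd : ∃ i, 0 < d i
      · exact hbig 0 hZD d v hdb hv hbd
      · push Not at hbd
        exact main 0 hZD hZ d v hdb hv (fun i => hbd i) ⟨0, Nat.le_zero.1 (hbd 0)⟩
    · intro i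
      have h2 := hP i
      rw [hL] at h2
      exact pow_le_mono p Z b h2
  | succ D ihD =>
    apply ihD (hZ.mono (Nat.le_succ D))
    intro i₀ P hDb hP hi₀
    apply multilinear_zero_of_span' F (fun i => if i = i₀ then Mono p Z b (D + 1)
      else Mono p Z b 0)
    · intro w hw
      have h0 : ∀ i, ∃ d v, (i = i₀ → D + 1 ≤ d) ∧ d ≤ b ∧ v ∈ Z ^ d ∧ w i = p ^ (b - d) * v := by
        intro i
        have h2 := hw i
        by_cases hi : i = i₀
        · rw [if_pos hi] at h2
          obtain ⟨d, v, h3, h4, h5, h6⟩ := h2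
          exact ⟨d, v, fun _ => h3, h4, h5, h6⟩
        · rw [if_neg hi] at h2
          obtain ⟨d, v, h3, h4, h5, h6⟩ := h2
          exact ⟨d, v, fun h => absurd h hi, h4, h5, h6⟩
      choose d v hd0 hdb hv hx using h0
      have h1 : w = fun i => p ^ (b - d i) * v i := funext hx
      rw [h1]
      by_cases hbd : ∃ i, D + 1 < d i
      · exact hbig (D + 1) hZD d v hdb hv hbd
      · push Not at hbd
        exact main (D + 1) hZD hZ d v hdb hv (fun i => hbd i)
          ⟨i₀, le_antisymm (hbd i₀) (hd0 i₀ rfl)⟩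
    · intro i
      by_cases hi : i = i₀
      · rw [if_pos hi]
        rw [← hi] at hi₀
        rw [hL] at hi₀
        exact mul_le_mono p Z hDb hi₀
      · rw [if_neg hi]
        have h2 := hP i
        rw [hL] at h2
        exact pow_le_mono p Z b h2

/-- **The recursion.** -/
theorem part_main {p : A} {L Z : Submodule ℂ A} (hL : L = Submodule.span ℂ {p} ⊔ Z)
    (hroot : HasRoots L) (s a : ℕ) (ρ : ℕ → ℕ)
    (hcond : ∀ i : ℕ, 2 ≤ i → i ≤ a → 2 * s < (i - 1) * (i - 2) → ∃ j, j ≤ a ∧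
      ρ j < min j (a - i + 1) * (s + (i - 1) * (i - 2) / 2 + 1) +
        ∑ l ∈ Finset.range (j - (a - i + 1)), (s + i * (i - 1) / 2 + 1 - (l + 1) * (i - 1)))
    (k : ℕ) : ∀ (e : ℕ), k + 1 + e = a → ∀ (D : ℕ)
      (F : MultilinearMap ℂ (fun _ : Fin (k + 1) => A) ℂ), IsSymm F →
      IsK L (s + (k + 1) * k / 2) F → BD L Z (s + (k + 1) * k / 2) ρ e D F →
      ZD L Z (s + (k + 1) * k / 2) D F →
      ∀ P : Fin (k + 1) → A, (∀ i, P i ∈ L ^ (s + (k + 1) * k / 2)) → F P = 0 := by
  induction k with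
  | zero =>
    intro e _ D F hs hK _ _ P hP
    exact core2 hroot 1 _ (by simp) F hs hK P hP
  | succ k ih =>
    intro e he D F hs hK hZ hZD P hP
    have h2 : (k + 1 + 1) * (k + 1) / 2 = (k + 1) * k / 2 + (k + 1) := by
      have h3 : (k + 1 + 1) * (k + 1) = (k + 1) * k + (k + 1) * 2 := by ring
      rw [h3, Nat.add_mul_div_right _ _ (by norm_num)]
    have hb : s + (k + 1 + 1) * (k + 1) / 2 - (k + 1) = s + (k + 1) * k / 2 := by omega
    by_cases hk : 2 * s < (k + 1) * k
    · obtain ⟨j, hja, h4⟩ := hcond (k + 1 + 1) (by omega) (by omega) (by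
        have h5 : k + 1 + 1 - 1 = k + 1 := by omega
        have h6 : k + 1 + 1 - 2 = k := by omega
        rw [h5, h6]; exact hk)
      have h5 : k + 1 + 1 - 1 = k + 1 := by omega
      have h6 : k + 1 + 1 - 2 = k := by omega
      rw [h5, h6] at h4
      have h7 : a - (k + 1 + 1) = e := by omega
      rw [h7] at h4
      refine part_step hL hroot (e := e) (j := j) (by omega) ?_ (by omega) ?_ F hs hK D hZ hZD
        P hP
      · rw [hb]
        exact ih (e + 1) (by omega)
      · rw [hb]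
        exact h4
    · refine core2 hroot (k + 1 + 1) _ ?_ F hs hK P hP
      rw [Nat.add_sub_cancel, h2]
      push Not at hk
      have h3 : (k + 1) * k / 2 * 2 = (k + 1) * k := Nat.div_mul_cancel
        (by have := (Nat.even_mul_succ_self k).two_dvd; rwa [mul_comm] at this)
      nlinarith

end Vale.Agent.P181.H780
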