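import Vale.Agent.P181.R2.H780.RowDeg
import Vale.Agent.P181.H693.Row1

/-!
The form of a highest weight vector of weight `lam` vanishes as soon as one argument has more than
`lam 1` letters outside the first one, and the theorem on the second row.
-/

set_option autoImplicit false

open scoped TensorProduct

namespace Vale.Agent.P181.H780

open Vale.Agent.P181 MvPolynomial H280 H536

variable {n N : ℕ}

/-- The substitution `X i ↦ ∑ j, g i j * X j`. -/
noncomputable def subst (g : Matrix (Fin N) (Fin N) ℂ) :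
    MvPolynomial (Fin N) ℂ →ₐ[ℂ] MvPolynomial (Fin N) ℂ :=
  aeval (fun i => ∑ j, g i j • (X j : MvPolynomial (Fin N) ℂ))

lemma subst_X (g : Matrix (Fin N) (Fin N) ℂ) (i : Fin N) :
    subst g (X i) = ∑ j, g i j • (X j : MvPolynomial (Fin N) ℂ) := by
  rw [subst, aeval_X]

lemma subst_subst (g h : Matrix (Fin N) (Fin N) ℂ) (hgh : h * g = 1)
    (P : MvPolynomial (Fin N) ℂ) : subst g (subst h P) = P := by
  have h1 : (subst g).comp (subst h) = AlgHom.id ℂ (MvPolynomial (Fin N) ℂ) := by
    apply MvPolynomial.algHom_ext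
    intro i
    rw [AlgHom.comp_apply, AlgHom.id_apply, subst_X, map_sum]
    simp only [map_smul, subst_X, Finset.smul_sum, smul_smul]
    rw [Finset.sum_comm]
    have h2 : ∀ k, ∑ j, (h i j * g j k) • (X k : MvPolynomial (Fin N) ℂ) =
        ((h * g) i k) • (X k : MvPolynomial (Fin N) ℂ) := by
      intro k
      rw [Matrix.mul_apply, Finset.sum_smul]
    rw [Finset.sum_congr rfl (fun k _ => h2 k), hgh]
    rw [Finset.sum_eq_single i]
    · rw [Matrix.one_apply_eq, one_smul]
    · intro j _ hj
      rw [Matrix.one_apply_ne (Ne.symm hj), zero_smul]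
    · intro h3
      exact absurd (Finset.mem_univ i) h3
  exact DFunLike.congr_fun h1 P

lemma subst_mem (g : Matrix (Fin N) (Fin N) ℂ) {b : ℕ} {P : MvPolynomial (Fin N) ℂ}
    (hP : P ∈ linS N ^ b) : subst g P ∈ linS N ^ b := by
  have h1 : (linS N ^ b).map (subst g).toLinearMap ≤ linS N ^ b := by
    rw [Submodule.map_pow]
    apply pow_le_pow_left'
    rw [linS, Submodule.map_span, Submodule.span_le]
    rintro _ ⟨_, ⟨i, rfl⟩, rfl⟩
    change subst g (X i) ∈ linS N
    rw [subst_X]
    exact Submodule.sum_mem _ (fun j _ => (linS N).smul_mem _ (X_mem_linS j))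
  exact h1 ⟨P, hP, rfl⟩

/-- The action of the Borel group on the form of a highest weight vector. -/
theorem formOf_subst {a b : ℕ} (lam : Fin N → ℕ) (l : (Fin a → Fin b → (Fin N → ℂ)) →₀ ℂ)
    (hx : elOf l ∈ hwSpace lam (plethAct a b N)) (g : Matrix (Fin N) (Fin N) ℂ) (hg : IsBorel g)
    (P : Fin a → MvPolynomial (Fin N) ℂ) (hP : ∀ i, P i ∈ linS N ^ b) :
    formOf l (fun i => subst g (P i)) = (∏ i, g i i ^ lam i) * formOf l P := by
  have hM : ∀ c : Fin N, evL N (subst g (X c)) = fun v => (Matrix.toLin' g v) c := by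
    intro c
    funext v
    rw [subst_X, map_sum, Matrix.toLin'_apply, Matrix.mulVec, dotProduct, Finset.sum_apply]
    apply Finset.sum_congr rfl
    intro j _
    rw [map_smul, evL_X]
    rfl
  let Φ : MultilinearMap ℂ (fun _ : Fin a => MvPolynomial (Fin N) ℂ) ℂ :=
    comp (formOf l) (subst g) - (∏ i, g i i ^ lam i) • formOf l
  have hΦ : Φ P = 0 := by
    apply multilinear_zero_of_span Φ
      (Set.range (fun c : Fin b → Fin N => ∏ j, (X (c j) : MvPolynomial (Fin N) ℂ)))
    · intro w hw
      choose c hc using hw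
      have hw' : w = fun i => ∏ j, X (c i j) := by
        funext i; exact (hc i).symm
      have h1 := formOf_act lam l hx g c (fun i j => subst g (X (c i j))) hg
        (fun i j => hM (c i j))
      rw [hw']
      have h2 : Φ (fun i => ∏ j, X (c i j)) =
          formOf l (fun i => subst g (∏ j, X (c i j))) -
            (∏ i, g i i ^ lam i) * formOf l (fun i => ∏ j, X (c i j)) := rfl
      rw [h2]
      simp only [map_prod]
      rw [h1, sub_self]
    · intro i
      exact span_pow_eq _ _ (hP i)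
  have h1 : Φ P = formOf l (fun i => subst g (P i)) -
      (∏ i, g i i ^ lam i) * formOf l P := rfl
  rw [h1, sub_eq_zero] at hΦ
  exact hΦ

/-- Weights: too many letters `X 1` in one argument. -/
lemma formOf_X01 {a b : ℕ} (lam : Fin (n + 2) → ℕ)
    (l : (Fin a → Fin b → (Fin (n + 2) → ℂ)) →₀ ℂ)
    (hx : elOf l ∈ hwSpace lam (plethAct a b (n + 2))) {c : ℕ} (hc : lam 1 < c) (hcb : c ≤ b)
    (i₀ : Fin a) (P : Fin a → MvPolynomial (Fin (n + 2)) ℂ) (hP : ∀ i, P i ∈ linS (n + 2) ^ b)
    (hi₀ : P i₀ = X 1 ^ c * X 0 ^ (b - c)) : formOf l P = 0 := by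
  classical
  let S : Fin a → Set (MvPolynomial (Fin (n + 2)) ℂ) := fun i =>
    if i = i₀ then {X 1 ^ c * X 0 ^ (b - c)} else
      Set.range (fun c : Fin b → Fin (n + 2) => ∏ j, (X (c j) : MvPolynomial (Fin (n + 2)) ℂ))
  let c₀ : Fin b → Fin (n + 2) := fun j => if (j : ℕ) < c then 1 else 0
  have hcard : (Finset.univ.filter (fun j : Fin b => (j : ℕ) < c)).card = c := by
    have h1 : (Finset.univ.filter (fun j : Fin b => (j : ℕ) < c)) =
        Finset.univ.map (Fin.castLEEmb hcb) := by
      ext j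
      simp only [Finset.mem_filter, Finset.mem_univ, true_and, Finset.mem_map]
      constructor
      · intro h
        exact ⟨⟨j, h⟩, Fin.ext rfl⟩
      · rintro ⟨q, rfl⟩
        exact q.2
    rw [h1, Finset.card_map, Finset.card_univ, Fintype.card_fin]
  have hcard2 : (Finset.univ.filter (fun j : Fin b => ¬ (j : ℕ) < c)).card = b - c := by
    have h1 := Finset.card_filter_add_card_filter_not (s := (Finset.univ : Finset (Fin b)))
      (fun j : Fin b => (j : ℕ) < c)
    rw [hcard, Finset.card_univ, Fintype.card_fin] at h1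
    omega
  have hprod : ∏ j, (X (c₀ j) : MvPolynomial (Fin (n + 2)) ℂ) = X 1 ^ c * X 0 ^ (b - c) := by
    have h1 : ∀ j : Fin b, (X (c₀ j) : MvPolynomial (Fin (n + 2)) ℂ) =
        if (j : ℕ) < c then X 1 else X 0 := by
      intro j
      simp only [c₀]
      split_ifs <;> rfl
    rw [Finset.prod_congr rfl (fun j _ => h1 j), Finset.prod_ite, Finset.prod_const,
      Finset.prod_const, hcard, hcard2]
  apply zero_of_span_dep (formOf l) S
  · intro w hw
    have hex : ∀ i, ∃ c' : Fin b → Fin (n + 2), (i = i₀ → c' = c₀) ∧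
        ∏ j, (X (c' j) : MvPolynomial (Fin (n + 2)) ℂ) = w i := by
      intro i
      have h1 := hw i
      by_cases hi : i = i₀
      · simp only [S, hi, if_true, Set.mem_singleton_iff] at h1
        refine ⟨c₀, fun _ => rfl, ?_⟩
        rw [hi, h1, hprod]
      · simp only [S, hi, if_false] at h1
        obtain ⟨c', hc'⟩ := h1
        exact ⟨c', fun h => absurd h hi, hc'⟩
    choose d hd1 hd2 using hex
    have hwd : w = fun i => ∏ j, X (d i j) := by
      funext i
      exact (hd2 i).symm
    rw [hwd]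
    apply H534.formOf_wt lam l hx d 1
    apply ne_of_gt
    refine lt_of_lt_of_le hc ?_
    rw [← hcard, H534.cnt]
    apply Finset.card_le_card_of_injOn (fun j : Fin b => (i₀, j))
    · intro j hj
      simp only [Finset.coe_filter, Finset.mem_univ, true_and, Set.mem_ofPred_eq] at hj ⊢
      rw [hd1 i₀ rfl]
      simp only [c₀, hj, if_true]
    · intro j _ j' _ h
      exact (Prod.mk.inj h).2
  · intro i
    by_cases hi : i = i₀
    · simp only [S, hi, if_true]
      rw [hi₀]
      exact Submodule.subset_span rfl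
    · simp only [S, hi, if_false]
      exact span_pow_eq _ _ (hP i)

/-- The matrix with row `1` equal to `m` and the other rows those of the identity. -/
def rowMat (m : Fin (n + 2) → ℂ) : Matrix (Fin (n + 2)) (Fin (n + 2)) ℂ :=
  Matrix.of (fun i j => if i = 1 then m j else if i = j then 1 else 0)

lemma rowMat_borel {m : Fin (n + 2) → ℂ} (h0 : m 0 = 0) (h1 : m 1 ≠ 0) : IsBorel (rowMat m) := by
  constructor
  · intro i j hij
    rw [rowMat, Matrix.of_apply]
    by_cases hi : i = 1
    · have hj : j = 0 := by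
        rw [hi] at hij
        apply Fin.ext
        have h2 : (j : ℕ) < 1 := hij
        simpa using h2
      rw [if_pos hi, hj, h0]
    · rw [if_neg hi, if_neg (ne_of_gt hij)]
  · intro i
    rw [rowMat, Matrix.of_apply]
    by_cases hi : i = 1
    · rw [if_pos hi, hi]
      exact h1
    · rw [if_neg hi, if_pos rfl]
      exact one_ne_zero

lemma subst_rowMat_one (m : Fin (n + 2) → ℂ) :
    subst (rowMat m) (X 1) = ∑ j, m j • (X j : MvPolynomial (Fin (n + 2)) ℂ) := by
  rw [subst_X]
  apply Finset.sum_congr rfl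
  intro j _
  rw [rowMat, Matrix.of_apply, if_pos rfl]

lemma subst_rowMat_zero (m : Fin (n + 2) → ℂ) :
    subst (rowMat m) (X 0) = (X 0 : MvPolynomial (Fin (n + 2)) ℂ) := by
  rw [subst_X, Finset.sum_eq_single 0]
  · rw [rowMat, Matrix.of_apply, if_neg (by
      intro h
      have := congrArg Fin.val h
      simp at this), if_pos rfl, one_smul]
  · intro j _ hj
    rw [rowMat, Matrix.of_apply, if_neg (by
      intro h
      have := congrArg Fin.val h
      simp at this), if_neg (Ne.symm hj), zero_smul]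
  · intro h
    exact absurd (Finset.mem_univ _) h

lemma det_ne_zero {g : Matrix (Fin N) (Fin N) ℂ} (hg : IsBorel g) : g.det ≠ 0 := by
  have h1 : g.det = ∏ i, g i i :=
    Matrix.det_of_isUpperTriangular (fun i j hij => hg.1 i j hij)
  rw [h1]
  exact Finset.prod_ne_zero_iff.2 (fun i _ => hg.2 i)

/-- Too many letters outside the first one, in a power of a general linear form. -/
lemma formOf_pow_ne {a b : ℕ} (lam : Fin (n + 2) → ℕ)
    (l : (Fin a → Fin b → (Fin (n + 2) → ℂ)) →₀ ℂ)
    (hx : elOf l ∈ hwSpace lam (plethAct a b (n + 2))) {c : ℕ} (hc : lam 1 < c) (hcb : c ≤ b)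
    (m : Fin (n + 2) → ℂ) (h0 : m 0 = 0) (h1 : m 1 ≠ 0)
    (i₀ : Fin a) (P : Fin a → MvPolynomial (Fin (n + 2)) ℂ) (hP : ∀ i, P i ∈ linS (n + 2) ^ b)
    (hi₀ : P i₀ = (∑ j, m j • (X j : MvPolynomial (Fin (n + 2)) ℂ)) ^ c * X 0 ^ (b - c)) :
    formOf l P = 0 := by
  have hg := rowMat_borel h0 h1
  have hdet : IsUnit (rowMat m).det := isUnit_iff_ne_zero.2 (det_ne_zero hg)
  have h2 := formOf_subst lam l hx (rowMat m) hg (fun i => subst (rowMat m)⁻¹ (P i))
    (fun i => subst_mem _ (hP i))
  have h3 : (fun i => subst (rowMat m) (subst (rowMat m)⁻¹ (P i))) = P := by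
    funext i
    exact subst_subst _ _ (Matrix.nonsing_inv_mul _ hdet) _
  rw [h3] at h2
  rw [h2, formOf_X01 lam l hx hc hcb i₀ _ (fun i => subst_mem _ (hP i)) ?_, mul_zero]
  have h4 : P i₀ = subst (rowMat m) (X 1 ^ c * X 0 ^ (b - c)) := by
    rw [hi₀, map_mul, map_pow, map_pow, subst_rowMat_one, subst_rowMat_zero]
  rw [h4]
  exact subst_subst _ _ (Matrix.mul_nonsing_inv _ hdet) _

/-- Too many letters outside the first one, in a power of a linear form. -/
lemma formOf_pow {a b : ℕ} (lam : Fin (n + 2) → ℕ)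
    (l : (Fin a → Fin b → (Fin (n + 2) → ℂ)) →₀ ℂ)
    (hx : elOf l ∈ hwSpace lam (plethAct a b (n + 2))) {c : ℕ} (hc : lam 1 < c) (hcb : c ≤ b)
    {z : MvPolynomial (Fin (n + 2)) ℂ} (hz : z ∈ H693.ZZ1 (n + 1))
    (i₀ : Fin a) (P : Fin a → MvPolynomial (Fin (n + 2)) ℂ) (hP : ∀ i, P i ∈ linS (n + 2) ^ b)
    (hi₀ : P i₀ = z ^ c * X 0 ^ (b - c)) :
    formOf l P = 0 := by
  classical
  obtain ⟨m', hm'⟩ := (Submodule.mem_span_range_iff_exists_fun ℂ).1 hz
  have hzL : z ∈ linS (n + 2) := by
    rw [← H693.sup_eq1 (n + 1)]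
    exact Submodule.mem_sup_right hz
  have hpow : ∀ y ∈ linS (n + 2), y ^ c * X 0 ^ (b - c) ∈ linS (n + 2) ^ b := by
    intro y hy
    have h1 : linS (n + 2) ^ b = linS (n + 2) ^ c * linS (n + 2) ^ (b - c) := by
      rw [← pow_add]
      congr 1
      omega
    rw [h1]
    exact Submodule.mul_mem_mul (Submodule.pow_mem_pow _ hy _)
      (Submodule.pow_mem_pow _ (X_mem_linS 0) _)
  -- the statement for every combination with nonzero coefficient of `X 1`
  have key : ∀ s : ℂ, m' 0 + s ≠ 0 → formOf l (Function.update P i₀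
      ((z + s • (X 1 : MvPolynomial (Fin (n + 2)) ℂ)) ^ c * X 0 ^ (b - c))) = 0 := by
    intro s hs
    apply formOf_pow_ne lam l hx hc hcb (Fin.cons 0 (fun j => m' j + if j = 0 then s else 0))
      (by rw [Fin.cons_zero]) ?_ i₀
    · intro i
      by_cases hi : i = i₀
      · rw [hi, Function.update_self]
        exact hpow _ ((linS (n + 2)).add_mem hzL ((linS (n + 2)).smul_mem _ (X_mem_linS 1)))
      · rw [Function.update_of_ne hi]
        exact hP i
    · rw [Function.update_self]
      congr 2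
      rw [Fin.sum_univ_succ, Fin.cons_zero, zero_smul, zero_add, ← hm']
      simp only [Fin.cons_succ, add_smul]
      rw [Finset.sum_add_distrib]
      congr 1
      rw [Finset.sum_eq_single 0]
      · rw [if_pos rfl]
        rfl
      · intro j _ hj
        rw [if_neg hj, zero_smul]
      · intro h
        exact absurd (Finset.mem_univ _) h
    · have h1 : (1 : Fin (n + 2)) = Fin.succ 0 := rfl
      rw [h1, Fin.cons_succ, if_pos rfl]
      exact hs
  -- continuity
  let u : Fin a → ℂ → MvPolynomial (Fin (n + 2)) ℂ := fun i s =>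
    if i = i₀ then (z + s • (X 1 : MvPolynomial (Fin (n + 2)) ℂ)) ^ c * X 0 ^ (b - c) else P i
  have hu : ∀ i, IsCurve (if i = i₀ then c else 0) (u i) := by
    intro i
    by_cases hi : i = i₀
    · have h1 : u i = fun s => (z + s • (X 1 : MvPolynomial (Fin (n + 2)) ℂ)) ^ c *
          X 0 ^ (b - c) := by
        funext s
        simp only [u, hi, if_true]
      rw [if_pos hi, h1]
      exact isCurve_pow _ _ _ _
    · have h1 : u i = fun _ => P i := by
        funext s
        simp only [u, hi, if_false]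
      rw [if_neg hi, h1]
      exact isCurve_const _
  obtain ⟨p, -, hp⟩ := exists_poly (formOf l) u (fun i => if i = i₀ then c else 0) hu
  have hu' : ∀ s, (fun i => u i s) = Function.update P i₀
      ((z + s • (X 1 : MvPolynomial (Fin (n + 2)) ℂ)) ^ c * X 0 ^ (b - c)) := by
    intro s
    funext i
    by_cases hi : i = i₀
    · subst hi
      rw [Function.update_self]
      simp only [u, if_true]
    · rw [Function.update_of_ne hi]
      simp only [u, hi, if_false]
  have hp0 : (Polynomial.X + Polynomial.C (m' 0)) * p = 0 := by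
    apply Polynomial.funext
    intro s
    rw [Polynomial.eval_mul, Polynomial.eval_zero, hp, hu', Polynomial.eval_add,
      Polynomial.eval_X, Polynomial.eval_C]
    by_cases hs : m' 0 + s = 0
    · rw [add_comm s, hs, zero_mul]
    · rw [key s hs, mul_zero]
  have hp1 : p = 0 := by
    rcases mul_eq_zero.1 hp0 with h | h
    · exact absurd h (Polynomial.X_add_C_ne_zero _)
    · exact h
  have h5 := hp 0
  rw [hp1, Polynomial.eval_zero, hu', zero_smul, add_zero] at h5
  rw [h5, ← hi₀, Function.update_eq_self]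

/-- The form of a highest weight vector of weight `lam` has the property `RD` with
`ℓ = lam 1`. -/
theorem rd_formOf {a b : ℕ} (lam : Fin (n + 2) → ℕ)
    (l : (Fin a → Fin b → (Fin (n + 2) → ℂ)) →₀ ℂ)
    (hx : elOf l ∈ hwSpace lam (plethAct a b (n + 2))) :
    RD (linS (n + 2)) (H693.ZZ1 (n + 1)) b (lam 1) (formOf l) := by
  classical
  intro e he i₀ P hP hi₀
  have hZ : H693.ZZ1 (n + 1) ≤ linS (n + 2) := by
    rw [← H693.sup_eq1 (n + 1)]
    exact le_sup_right
  have hX : (X 0 : MvPolynomial (Fin (n + 2)) ℂ) ∈ linS (n + 2) := X_mem_linS 0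
  let φ : MvPolynomial (Fin (n + 2)) ℂ →ₗ[ℂ] ℂ := (formOf l).toLinearMap P i₀
  have hφ : ∀ v, φ v = formOf l (Function.update P i₀ v) := fun v => rfl
  have h1 : ∀ c, lam 1 < c → c ≤ b → ∀ v ∈ H693.ZZ1 (n + 1) ^ c, φ (v * X 0 ^ (b - c)) = 0 := by
    intro c hc hcb v hv
    have hle : H693.ZZ1 (n + 1) ^ c ≤
        LinearMap.ker (φ ∘ₗ LinearMap.mulRight ℂ (X 0 ^ (b - c))) := by
      refine (pow_le_span_pow _ _).trans ?_
      rw [Submodule.span_le]
      rintro _ ⟨z, hz, rfl⟩
      rw [SetLike.mem_coe, LinearMap.mem_ker, LinearMap.comp_apply, LinearMap.mulRight_apply, hφ]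
      apply formOf_pow lam l hx hc hcb hz i₀
      · intro i
        by_cases hi : i = i₀
        · rw [hi, Function.update_self]
          have h2 : linS (n + 2) ^ b = linS (n + 2) ^ c * linS (n + 2) ^ (b - c) := by
            rw [← pow_add]
            congr 1
            omega
          rw [h2]
          exact Submodule.mul_mem_mul (Submodule.pow_mem_pow _ (hZ hz) _)
            (Submodule.pow_mem_pow _ hX _)
        · rw [Function.update_of_ne hi]
          exact hP i
      · rw [Function.update_self]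
    have h2 := hle hv
    rwa [LinearMap.mem_ker, LinearMap.comp_apply, LinearMap.mulRight_apply] at h2
  have h2 : H693.ZZ1 (n + 1) ^ (lam 1 + 1) * linS (n + 2) ^ e ≤ LinearMap.ker φ := by
    rw [Submodule.mul_le]
    intro v hv y hy
    have hle : linS (n + 2) ^ e ≤ LinearMap.ker (φ ∘ₗ LinearMap.mulLeft ℂ v) := by
      refine (pow_le_span_pow _ _).trans ?_
      rw [Submodule.span_le]
      rintro _ ⟨θ, hθ, rfl⟩
      rw [SetLike.mem_coe, LinearMap.mem_ker, LinearMap.comp_apply, LinearMap.mulLeft_apply]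
      rw [SetLike.mem_coe, ← H693.sup_eq1 (n + 1), Submodule.mem_sup] at hθ
      obtain ⟨y', hy', z, hz, rfl⟩ := hθ
      obtain ⟨α, rfl⟩ := Submodule.mem_span_singleton.1 hy'
      change φ (v * (α • X 0 + z) ^ e) = 0
      rw [add_pow, Finset.mul_sum, map_sum]
      apply Finset.sum_eq_zero
      intro j hj
      rw [Finset.mem_range] at hj
      have h3 : v * ((α • X 0) ^ j * z ^ (e - j) * ((e.choose j : ℕ) :
          MvPolynomial (Fin (n + 2)) ℂ)) =
          (((e.choose j : ℕ) : ℂ) * α ^ j) • ((v * z ^ (e - j)) *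
            X 0 ^ (b - (lam 1 + 1 + (e - j)))) := by
        have h4 : b - (lam 1 + 1 + (e - j)) = j := by omega
        rw [h4]
        simp only [Algebra.smul_def, map_natCast, map_pow, map_mul]
        ring
      rw [h3, map_smul, h1 (lam 1 + 1 + (e - j)) (by omega) (by omega), smul_zero]
      rw [pow_add]
      exact Submodule.mul_mem_mul hv (Submodule.pow_mem_pow _ hz _)
    have h3 := hle hy
    rwa [LinearMap.mem_ker, LinearMap.comp_apply, LinearMap.mulLeft_apply] at h3
  have h3 := h2 hi₀
  rw [LinearMap.mem_ker, hφ, Function.update_eq_self] at h3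
  exact h3

/-- **The canonical map is injective on highest weight vectors with a short second row.** -/
theorem injOn_secondRow {a b : ℕ} (lam : Fin (n + 2) → ℕ)
    (h : RDKer (linS (n + 2)) (H693.ZZ1 (n + 1)) a b (lam 1)) (x : Pleth a b (n + 2))
    (hx : x ∈ hwSpace lam (plethAct a b (n + 2)))
    (h0 : foulkesHowe a b (Fin (n + 2) → ℂ) x = 0) : x = 0 := by
  obtain ⟨l, rfl⟩ := exists_elOf x
  apply elOf_eq_zero
  exact h (formOf l) (formOf_symm l) (isK_formOf l h0) (rd_formOf lam l hx)

theorem plethMult_secondRow {a b : ℕ} (lam : Fin (n + 2) → ℕ)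
    (h : RDKer (linS (n + 2)) (H693.ZZ1 (n + 1)) a b (lam 1)) :
    plethMult a b (n + 2) lam ≤ plethMult b a (n + 2) lam :=
  finrank_le_of_inj (foulkesHowe a b (Fin (n + 2) → ℂ)) _ _
    (fun x hx => foulkesHowe_hwSpace lam x hx)
    (fun x hx h0 => injOn_secondRow lam h x hx h0)

/-- The two forms of the numerical condition. -/
theorem rdKer_linS {a b ℓ : ℕ} (h : a * (a - 1) + ℓ ≤ 2 * b ∨ ∃ s, s < a ∧
    a * (a - 1) + s * (s - 1) ≤ 2 * b ∧ a * (a - 1) + 2 * ℓ ≤ 2 * b + s * (s + 1)) :
    RDKer (linS (n + 2)) (H693.ZZ1 (n + 1)) a b ℓ := by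
  rcases h with h | ⟨s, hs, h1, h2⟩
  · exact rdKer_linear (x := X 0) (H693.hasRoots_linS (n + 2)) (H693.sup_eq1 (n + 1)).symm h
  · exact rdKer (x := X 0) (H693.hasRoots_linS (n + 2)) (H693.sup_eq1 (n + 1)).symm ℓ s a hs b
      h1 h2

end Vale.Agent.P181.H780
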