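import Vale.Agent.P181.R2.H780.PartSum
import Vale.Agent.P181.R2.H780.RowDegHW

/-!
The form of a highest weight vector of weight `lam`: in any `j` slots the number of letters
outside the first one is at most `lam 1 + ⋯ + lam j`.
-/

set_option autoImplicit false

open scoped TensorProduct Pointwise

namespace Vale.Agent.P181.H780

open Vale.Agent.P181 MvPolynomial H280 H536

variable {n N : ℕ}

/-- Products of `b` letters with at least `d` factors in `J`. -/
def MonJ (b : ℕ) (J : Finset (Fin N)) (d : ℕ) : Set (MvPolynomial (Fin N) ℂ) :=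
  {p | ∃ c : Fin b → Fin N, d ≤ (Finset.univ.filter (fun q => c q ∈ J)).card ∧
    ∏ q, X (c q) = p}

/-- The span of the letters in `J`. -/
noncomputable def UJ (J : Finset (Fin N)) : Submodule ℂ (MvPolynomial (Fin N) ℂ) :=
  Submodule.span ℂ ((fun t => (X t : MvPolynomial (Fin N) ℂ)) '' (J : Set (Fin N)))

lemma uj_pow_le {b d : ℕ} (J : Finset (Fin N)) (hd : d ≤ b) :
    UJ J ^ d * linS N ^ (b - d) ≤ Submodule.span ℂ (MonJ b J d) := by
  classical
  obtain ⟨e, rfl⟩ := Nat.exists_eq_add_of_le hd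
  rw [Nat.add_sub_cancel_left, UJ, linS, Submodule.span_pow, Submodule.span_pow,
    Submodule.span_mul_span, Submodule.span_le]
  rintro _ ⟨x, hx, y, hy, rfl⟩
  apply Submodule.subset_span
  rw [Set.mem_pow] at hx hy
  obtain ⟨f, rfl⟩ := hx
  obtain ⟨g, rfl⟩ := hy
  choose f' hf' using fun i => (f i).2
  choose g' hg' using fun i => (g i).2
  refine ⟨Fin.append f' g', ?_, ?_⟩
  · have h1 : (Finset.univ.map (Fin.castAddEmb e (n := d))).card ≤
        (Finset.univ.filter (fun j => Fin.append f' g' j ∈ J)).card := by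
      apply Finset.card_le_card
      intro j hj
      rw [Finset.mem_map] at hj
      obtain ⟨i, -, rfl⟩ := hj
      rw [Finset.mem_filter]
      refine ⟨Finset.mem_univ _, ?_⟩
      rw [Fin.castAddEmb_apply, Fin.append_left]
      exact (hf' i).1
    rwa [Finset.card_map, Finset.card_univ, Fintype.card_fin] at h1
  · rw [Fin.prod_univ_add]
    simp only [Fin.append_left, Fin.append_right, List.prod_ofFn]
    congr 1
    · exact Finset.prod_congr rfl (fun i _ => (hf' i).2)
    · exact Finset.prod_congr rfl (fun i _ => hg' i)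

/-- Weights of a set of letters. -/
lemma formOf_wtJ {a b : ℕ} (lam : Fin N → ℕ) (l : (Fin a → Fin b → (Fin N → ℂ)) →₀ ℂ)
    (hx : elOf l ∈ hwSpace lam (plethAct a b N)) (J : Finset (Fin N))
    (c : Fin a → Fin b → Fin N)
    (h : ∑ t ∈ J, lam t <
      (Finset.univ.filter (fun x : Fin a × Fin b => c x.1 x.2 ∈ J)).card) :
    formOf l (fun i => ∏ j, X (c i j)) = 0 := by
  classical
  by_contra h0
  apply absurd h
  rw [not_lt]
  have h1 := Finset.card_eq_sum_card_fiberwise (f := fun x : Fin a × Fin b => c x.1 x.2)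
    (s := Finset.univ.filter (fun x : Fin a × Fin b => c x.1 x.2 ∈ J)) (t := J) (by
      intro x hx
      exact (Finset.mem_filter.1 hx).2)
  rw [h1]
  apply Finset.sum_le_sum
  intro t ht
  by_contra h2
  apply h0
  apply H534.formOf_wt lam l hx c t
  intro h3
  apply h2
  rw [← h3, H534.cnt]
  apply Finset.card_le_card
  intro x hx
  rw [Finset.mem_filter] at hx ⊢
  exact ⟨Finset.mem_univ _, hx.2⟩

/-- Too many letters of `J` in the slots `σ`. -/
lemma formOf_J {a b j : ℕ} (lam : Fin N → ℕ) (l : (Fin a → Fin b → (Fin N → ℂ)) →₀ ℂ)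
    (hx : elOf l ∈ hwSpace lam (plethAct a b N)) (J : Finset (Fin N)) (σ : Fin j ↪ Fin a)
    (c : Fin j → ℕ) (hcb : ∀ q, c q ≤ b) (P : Fin a → MvPolynomial (Fin N) ℂ)
    (hP : ∀ i, P i ∈ linS N ^ b) (hPσ : ∀ q, P (σ q) ∈ UJ J ^ c q * linS N ^ (b - c q))
    (h : ∑ t ∈ J, lam t < ∑ q, c q) : formOf l P = 0 := by
  classical
  have hex : ∀ i, ∃ d, (∀ q, σ q = i → c q = d) ∧ P i ∈ Submodule.span ℂ (MonJ b J d) := by
    intro i
    by_cases hi : ∃ q, σ q = i
    · obtain ⟨q, rfl⟩ := hi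
      refine ⟨c q, fun q' hq' => by rw [σ.injective hq'], uj_pow_le J (hcb q) (hPσ q)⟩
    · refine ⟨0, fun q hq => absurd ⟨q, hq⟩ hi, ?_⟩
      have h1 := uj_pow_le J (Nat.zero_le b) (N := N)
      rw [pow_zero, one_mul, Nat.sub_zero] at h1
      exact h1 (hP i)
  choose d hd1 hd2 using hex
  apply zero_of_span_dep (formOf l) (fun i => MonJ b J (d i)) _ P hd2
  intro w hw
  choose e he1 he2 using hw
  have h1 : w = fun i => ∏ q, X (e i q) := by
    funext i
    exact (he2 i).symm
  rw [h1]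
  apply formOf_wtJ lam l hx J e
  refine lt_of_lt_of_le h ?_
  have h2 : (Finset.univ.filter (fun x : Fin a × Fin b => e x.1 x.2 ∈ J)).card =
      ∑ i, (Finset.univ.filter (fun q => e i q ∈ J)).card := by
    rw [Finset.card_filter, ← Finset.univ_product_univ, Finset.sum_product]
    apply Finset.sum_congr rfl
    intro i _
    rw [Finset.card_filter]
  rw [h2]
  have h3 : ∑ q, c q = ∑ i ∈ Finset.univ.map σ, d i := by
    rw [Finset.sum_map]
    exact Finset.sum_congr rfl (fun q _ => hd1 (σ q) q rfl)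
  rw [h3]
  exact (Finset.sum_le_sum (fun i _ => he1 i)).trans
    (Finset.sum_le_sum_of_subset (Finset.subset_univ _))

/-- The letters `1, …, j`. -/
def letters (n j : ℕ) : Finset (Fin (n + 2)) :=
  Finset.univ.filter (fun t => t ≠ 0 ∧ (t : ℕ) ≤ j)

/-- The matrix with rows `1, …, j` given by `Q` and the other rows those of the identity. -/
noncomputable def rowsMat {j : ℕ} (Q : Matrix (Fin j) (Fin (n + 1)) ℂ) :
    Matrix (Fin (n + 2)) (Fin (n + 2)) ℂ :=
  Matrix.of (Fin.cons (Pi.single 0 1) (fun r : Fin (n + 1) =>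
    if h : (r : ℕ) < j then Fin.cons 0 (Q ⟨r, h⟩) else Pi.single r.succ 1))

lemma subst_rowsMat_zero {j : ℕ} (Q : Matrix (Fin j) (Fin (n + 1)) ℂ) :
    subst (rowsMat Q) (X 0) = (X 0 : MvPolynomial (Fin (n + 2)) ℂ) := by
  rw [subst_X, Finset.sum_eq_single 0]
  · rw [rowsMat, Matrix.of_apply, Fin.cons_zero, Pi.single_eq_same, one_smul]
  · intro k _ hk
    rw [rowsMat, Matrix.of_apply, Fin.cons_zero, Pi.single_eq_of_ne hk, zero_smul]
  · intro h
    exact absurd (Finset.mem_univ _) h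

lemma subst_rowsMat_succ {j : ℕ} (Q : Matrix (Fin j) (Fin (n + 1)) ℂ) (hj : j ≤ n + 1)
    (r : Fin j) : subst (rowsMat Q) (X (Fin.castLE hj r).succ) =
      ∑ t, Q r t • (X t.succ : MvPolynomial (Fin (n + 2)) ℂ) := by
  rw [subst_X, Fin.sum_univ_succ]
  have h1 : ∀ k, rowsMat Q (Fin.castLE hj r).succ k = (Fin.cons 0 (Q r) : Fin (n + 2) → ℂ) k := by
    intro k
    rw [rowsMat, Matrix.of_apply, Fin.cons_succ, dif_pos (by exact r.2)]
    rfl
  rw [h1, Fin.cons_zero, zero_smul, zero_add]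
  apply Finset.sum_congr rfl
  intro t _
  rw [h1, Fin.cons_succ]

lemma rowsMat_borel {j : ℕ} (Q : Matrix (Fin j) (Fin (n + 1)) ℂ) (hj : j ≤ n + 1)
    (hQ : ∀ r t : Fin j, Q r (Fin.castLE hj t) = if r = t then 1 else 0) :
    IsBorel (rowsMat Q) := by
  constructor
  · intro i k hki
    refine Fin.cases (motive := fun i => k < i → rowsMat Q i k = 0) ?_ ?_ i hki
    · intro h
      exact absurd h (Fin.not_lt_zero k)
    · intro r h
      rw [rowsMat, Matrix.of_apply, Fin.cons_succ]
      by_cases hr : (r : ℕ) < j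
      · rw [dif_pos hr]
        refine Fin.cases (motive := fun k => k < r.succ →
          (Fin.cons 0 (Q ⟨r, hr⟩) : Fin (n + 2) → ℂ) k = 0) ?_ ?_ k h
        · intro _
          rfl
        · intro t ht
          rw [Fin.cons_succ]
          have ht' : (t : ℕ) < r := by
            rw [Fin.succ_lt_succ_iff] at ht
            exact ht
          have h2 := hQ ⟨r, hr⟩ ⟨t, by omega⟩
          rw [if_neg (by
            intro h3
            have := congrArg Fin.val h3
            simp only at this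
            omega)] at h2
          exact h2
      · rw [dif_neg hr]
        exact Pi.single_eq_of_ne (ne_of_lt h) _
  · intro i
    refine Fin.cases ?_ (fun r => ?_) i
    · rw [rowsMat, Matrix.of_apply, Fin.cons_zero, Pi.single_eq_same]
      exact one_ne_zero
    · rw [rowsMat, Matrix.of_apply, Fin.cons_succ]
      by_cases hr : (r : ℕ) < j
      · rw [dif_pos hr, Fin.cons_succ]
        have h2 := hQ ⟨r, hr⟩ ⟨r, hr⟩
        rw [if_pos rfl] at h2
        have h3 : Q ⟨r, hr⟩ r = 1 := h2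
        rw [h3]
        exact one_ne_zero
      · rw [dif_neg hr, Pi.single_eq_same]
        exact one_ne_zero

lemma mem_letters {j : ℕ} (hj : j ≤ n + 1) (r : Fin j) :
    (Fin.castLE hj r).succ ∈ letters n j := by
  rw [letters, Finset.mem_filter]
  refine ⟨Finset.mem_univ _, Fin.succ_ne_zero _, ?_⟩
  have := r.2
  simp only [Fin.val_succ, Fin.val_castLE]
  omega

/-- Generic linear forms in the slots `σ`. -/
lemma formOf_slots_gen {a b j : ℕ} (lam : Fin (n + 2) → ℕ)
    (l : (Fin a → Fin b → (Fin (n + 2) → ℂ)) →₀ ℂ)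
    (hx : elOf l ∈ hwSpace lam (plethAct a b (n + 2))) (hj : j ≤ n + 1) (σ : Fin j ↪ Fin a)
    (c : Fin j → ℕ) (hcb : ∀ q, c q ≤ b) (M : Matrix (Fin j) (Fin (n + 1)) ℂ)
    (hM : (Matrix.of (fun q r : Fin j => M q (Fin.castLE hj r))).det ≠ 0)
    (P : Fin a → MvPolynomial (Fin (n + 2)) ℂ) (hP : ∀ i, P i ∈ linS (n + 2) ^ b)
    (hPσ : ∀ q, P (σ q) = (∑ t, M q t • (X t.succ : MvPolynomial (Fin (n + 2)) ℂ)) ^ c q *
      X 0 ^ (b - c q))
    (h : ∑ t ∈ letters n j, lam t < ∑ q, c q) : formOf l P = 0 := by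
  classical
  set T : Matrix (Fin j) (Fin j) ℂ := Matrix.of (fun q r : Fin j => M q (Fin.castLE hj r)) with hT
  have hu : IsUnit T.det := isUnit_iff_ne_zero.2 hM
  set Q : Matrix (Fin j) (Fin (n + 1)) ℂ := T⁻¹ * M with hQdef
  have hTQ : T * Q = M := by
    rw [hQdef, ← Matrix.mul_assoc, Matrix.mul_nonsing_inv _ hu, Matrix.one_mul]
  have hQ : ∀ r t : Fin j, Q r (Fin.castLE hj t) = if r = t then 1 else 0 := by
    intro r t
    have h1 : Q r (Fin.castLE hj t) = (T⁻¹ * T) r t := rfl
    rw [h1, Matrix.nonsing_inv_mul _ hu, Matrix.one_apply]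
  have hg := rowsMat_borel Q hj hQ
  have hdet : IsUnit (rowsMat Q).det := isUnit_iff_ne_zero.2 (det_ne_zero hg)
  have h2 := formOf_subst lam l hx (rowsMat Q) hg (fun i => subst (rowsMat Q)⁻¹ (P i))
    (fun i => subst_mem _ (hP i))
  have h3 : (fun i => subst (rowsMat Q) (subst (rowsMat Q)⁻¹ (P i))) = P := by
    funext i
    exact subst_subst _ _ (Matrix.nonsing_inv_mul _ hdet) _
  rw [h3] at h2
  rw [h2, formOf_J lam l hx (letters n j) σ c hcb _ (fun i => subst_mem _ (hP i)) ?_ h, mul_zero]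
  intro q
  have h4 : P (σ q) = subst (rowsMat Q)
      ((∑ r, T q r • (X (Fin.castLE hj r).succ : MvPolynomial (Fin (n + 2)) ℂ)) ^ c q *
        X 0 ^ (b - c q)) := by
    rw [hPσ, map_mul, map_pow, map_pow, subst_rowsMat_zero, map_sum]
    congr 2
    simp only [map_smul, subst_rowsMat_succ Q hj, Finset.smul_sum, smul_smul]
    rw [Finset.sum_comm]
    apply Finset.sum_congr rfl
    intro t _
    rw [← Finset.sum_smul]
    congr 1
    rw [← hTQ, Matrix.mul_apply]
  rw [h4, subst_subst _ _ (Matrix.mul_nonsing_inv _ hdet)]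
  refine Submodule.mul_mem_mul (Submodule.pow_mem_pow _ ?_ _)
    (Submodule.pow_mem_pow _ (X_mem_linS 0) _)
  apply Submodule.sum_mem
  intro r _
  apply Submodule.smul_mem
  exact Submodule.subset_span ⟨_, mem_letters hj r, rfl⟩

end Vale.Agent.P181.H780
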