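import Vale.Agent.P181.R2.H780.PartSumHW

/-!
The class property of the form of a highest weight vector, and the theorem on partial sums of
rows.
-/

set_option autoImplicit false

open scoped TensorProduct Pointwise

namespace Vale.Agent.P181.H780

open Vale.Agent.P181 MvPolynomial H280 H536

variable {n N : ℕ}

/-- Linear forms in the slots `σ`. -/
lemma formOf_slots {a b j : ℕ} (lam : Fin (n + 2) → ℕ)
    (l : (Fin a → Fin b → (Fin (n + 2) → ℂ)) →₀ ℂ)
    (hx : elOf l ∈ hwSpace lam (plethAct a b (n + 2))) (hj : j ≤ n + 1) (σ : Fin j ↪ Fin a)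
    (c : Fin j → ℕ) (hcb : ∀ q, c q ≤ b) (z : Fin j → MvPolynomial (Fin (n + 2)) ℂ)
    (hz : ∀ q, z q ∈ H693.ZZ1 (n + 1))
    (P : Fin a → MvPolynomial (Fin (n + 2)) ℂ) (hP : ∀ i, P i ∈ linS (n + 2) ^ b)
    (hPσ : ∀ q, P (σ q) = z q ^ c q * X 0 ^ (b - c q))
    (h : ∑ t ∈ letters n j, lam t < ∑ q, c q) : formOf l P = 0 := by
  classical
  have hz' : ∀ q, ∃ m : Fin (n + 1) → ℂ,
      ∑ t, m t • (X t.succ : MvPolynomial (Fin (n + 2)) ℂ) = z q := by
    intro q
    exact (Submodule.mem_span_range_iff_exists_fun ℂ).1 (hz q)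
  choose M hM using hz'
  have hzL : ∀ q, z q ∈ linS (n + 2) := by
    intro q
    rw [← H693.sup_eq1 (n + 1)]
    exact Submodule.mem_sup_right (hz q)
  let y : Fin j → ℂ → MvPolynomial (Fin (n + 2)) ℂ := fun q s =>
    (z q + s • (X (Fin.castLE hj q).succ : MvPolynomial (Fin (n + 2)) ℂ)) ^ c q *
      X 0 ^ (b - c q)
  have hy : ∀ q s, y q s ∈ linS (n + 2) ^ b := by
    intro q s
    have h1 : linS (n + 2) ^ b = linS (n + 2) ^ c q * linS (n + 2) ^ (b - c q) := by
      rw [← pow_add]
      congr 1
      have := hcb q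
      omega
    rw [h1]
    exact Submodule.mul_mem_mul (Submodule.pow_mem_pow _ ((linS (n + 2)).add_mem (hzL q)
      ((linS (n + 2)).smul_mem _ (X_mem_linS _))) _)
      (Submodule.pow_mem_pow _ (X_mem_linS 0) _)
  let u : Fin a → ℂ → MvPolynomial (Fin (n + 2)) ℂ := fun i s =>
    Function.extend σ (fun q => y q s) P i
  have hu1 : ∀ q s, u (σ q) s = y q s := fun q s => σ.injective.extend_apply _ _ _
  have hu2 : ∀ i, (¬ ∃ q, σ q = i) → ∀ s, u i s = P i := by
    intro i hi s
    exact Function.extend_apply' _ _ _ hi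
  have hu : ∀ i, IsCurve (if hi : ∃ q, σ q = i then c hi.choose else 0) (u i) := by
    intro i
    by_cases hi : ∃ q, σ q = i
    · rw [dif_pos hi]
      have h1 : u i = fun s => (z hi.choose +
          s • (X (Fin.castLE hj hi.choose).succ : MvPolynomial (Fin (n + 2)) ℂ)) ^ c hi.choose *
          X 0 ^ (b - c hi.choose) := by
        funext s
        have h2 := hu1 hi.choose s
        rw [hi.choose_spec] at h2
        exact h2
      rw [h1]
      exact isCurve_pow _ _ _ _
    · rw [dif_neg hi]
      have h1 : u i = fun _ => P i := by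
        funext s
        exact hu2 i hi s
      rw [h1]
      exact isCurve_const _
  obtain ⟨p, -, hp⟩ := exists_poly (formOf l) u _ hu
  set T : Matrix (Fin j) (Fin j) ℂ := Matrix.of (fun q r : Fin j => M q (Fin.castLE hj r)) with hT
  have key : ∀ s : ℂ, (Matrix.scalar (Fin j) s - (-T)).det ≠ 0 → formOf l (fun i => u i s) = 0 := by
    intro s hs
    apply formOf_slots_gen lam l hx hj σ c hcb
      (Matrix.of (fun q t => M q t + if t = Fin.castLE hj q then s else 0)) ?_ _ ?_ ?_ h
    · have h1 : (Matrix.of (fun q r : Fin j => (Matrix.of (fun q t => M q t +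
          if t = Fin.castLE hj q then s else 0) : Matrix (Fin j) (Fin (n + 1)) ℂ) q
          (Fin.castLE hj r))) = Matrix.scalar (Fin j) s - (-T) := by
        ext q r
        rw [Matrix.of_apply, Matrix.of_apply, Matrix.sub_apply, Matrix.neg_apply, sub_neg_eq_add,
          hT, Matrix.of_apply, add_comm, Matrix.scalar_apply, Matrix.diagonal_apply]
        congr 1
        by_cases hqr : q = r
        · subst hqr
          rw [if_pos rfl, if_pos rfl]
        · rw [if_neg hqr, if_neg]
          intro h2
          apply hqr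
          have := congrArg Fin.val h2
          simp only [Fin.val_castLE] at this
          exact Fin.ext this.symm
      rw [h1]
      exact hs
    · intro i
      by_cases hi : ∃ q, σ q = i
      · obtain ⟨q, rfl⟩ := hi
        rw [hu1]
        exact hy q s
      · rw [hu2 i hi]
        exact hP i
    · intro q
      rw [hu1]
      simp only [y]
      congr 2
      rw [← hM q]
      simp only [Matrix.of_apply, add_smul]
      rw [Finset.sum_add_distrib]
      congr 1
      rw [Finset.sum_eq_single (Fin.castLE hj q)]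
      · rw [if_pos rfl]
      · intro t _ ht
        rw [if_neg ht, zero_smul]
      · intro h1
        exact absurd (Finset.mem_univ _) h1
  have hp0 : (-T).charpoly * p = 0 := by
    apply Polynomial.funext
    intro s
    rw [Polynomial.eval_mul, Polynomial.eval_zero, hp, Matrix.eval_charpoly]
    by_cases hs : (Matrix.scalar (Fin j) s - (-T)).det = 0
    · rw [hs, zero_mul]
    · rw [key s hs, mul_zero]
  have hp1 : p = 0 := by
    rcases mul_eq_zero.1 hp0 with h1 | h1
    · exact absurd h1 (Matrix.charpoly_monic _).ne_zero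
    · exact h1
  have h5 := hp 0
  rw [hp1, Polynomial.eval_zero] at h5
  rw [h5]
  congr 1
  funext i
  by_cases hi : ∃ q, σ q = i
  · obtain ⟨q, rfl⟩ := hi
    rw [hu1, hPσ]
    simp only [y, zero_smul, add_zero]
  · rw [hu2 i hi]

/-- The number of boxes in rows `2, …, j + 1`. -/
def rho (lam : Fin (n + 2) → ℕ) (j : ℕ) : ℕ := ∑ t ∈ letters n j, lam t

lemma rho_of_le (lam : Fin (n + 2) → ℕ) {j : ℕ} (hj : n + 1 ≤ j) :
    rho lam j = ∑ i : Fin (n + 1), lam i.succ := by
  have h1 : letters n j = Finset.univ.map (Fin.succEmb (n + 1)) := by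
    ext t
    rw [letters, Finset.mem_filter, Finset.mem_map]
    constructor
    · rintro ⟨-, h2, -⟩
      obtain ⟨i, rfl⟩ := Fin.exists_succ_eq.2 h2
      exact ⟨i, Finset.mem_univ _, rfl⟩
    · rintro ⟨i, -, rfl⟩
      refine ⟨Finset.mem_univ _, Fin.succ_ne_zero _, ?_⟩
      have := i.2
      simp only [Fin.coe_succEmb, Fin.val_succ]
      omega
  rw [rho, h1, Finset.sum_map]
  rfl

/-- The class property of the form of a highest weight vector. -/
theorem bd_formOf {a b : ℕ} (lam : Fin (n + 2) → ℕ)
    (l : (Fin a → Fin b → (Fin (n + 2) → ℂ)) →₀ ℂ)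
    (hx : elOf l ∈ hwSpace lam (plethAct a b (n + 2))) (D : ℕ) :
    BD (linS (n + 2)) (H693.ZZ1 (n + 1)) b (rho lam) 0 D (formOf l) := by
  classical
  intro e' S d he hd P hP hlt
  obtain rfl : e' = 0 := Nat.le_zero.1 he
  rw [add_zero, zero_mul, add_zero] at hlt
  have hZ : H693.ZZ1 (n + 1) ≤ linS (n + 2) := by
    rw [← H693.sup_eq1 (n + 1)]
    exact le_sup_right
  have hPL : ∀ i, P i ∈ linS (n + 2) ^ b := by
    intro i
    have h1 : linS (n + 2) ^ b = linS (n + 2) ^ d i * linS (n + 2) ^ (b - d i) := by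
      rw [← pow_add]
      congr 1
      have := hd i
      omega
    rw [h1]
    exact mul_le_mul' (pow_le_pow_left' hZ _) le_rfl (hP i)
  by_cases hj : S.card ≤ n + 1
  · let σ : Fin S.card ↪ Fin a := (S.orderEmbOfFin rfl).toEmbedding
    have hσ : Finset.univ.map σ = S := Finset.map_orderEmbOfFin_univ S rfl
    have hsum : ∑ i ∈ S, d i = ∑ q, d (σ q) := by
      conv_lhs => rw [← hσ]
      rw [Finset.sum_map]
    -- powers of linear forms in the slots of `S`
    let E : Fin a → Set (MvPolynomial (Fin (n + 2)) ℂ) := fun i =>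
      if i ∈ S then {p | ∃ c z, d i ≤ c ∧ c ≤ b ∧ z ∈ H693.ZZ1 (n + 1) ∧
        p = z ^ c * X 0 ^ (b - c)} else {P i}
    apply zero_of_span_dep (formOf l) E _ P
    · intro i
      by_cases hi : i ∈ S
      · simp only [E, hi, if_true]
        have h1 := hP i
        rw [← H693.sup_eq1 (n + 1)] at h1
        have h2 := mul_le_mono (X 0 : MvPolynomial (Fin (n + 2)) ℂ) (H693.ZZ1 (n + 1)) (hd i) h1
        refine Submodule.span_le.2 ?_ h2
        rintro _ ⟨c, w, hc1, hc2, hw, rfl⟩
        have h3 : H693.ZZ1 (n + 1) ^ c ≤ (Submodule.span ℂ {p | ∃ c z, d i ≤ c ∧ c ≤ b ∧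
            z ∈ H693.ZZ1 (n + 1) ∧ p = z ^ c * X 0 ^ (b - c)}).comap
            (LinearMap.mulLeft ℂ ((X 0 : MvPolynomial (Fin (n + 2)) ℂ) ^ (b - c))) := by
          refine (pow_le_span_pow _ _).trans ?_
          rw [Submodule.span_le]
          rintro _ ⟨z, hz, rfl⟩
          rw [SetLike.mem_coe, Submodule.mem_comap, LinearMap.mulLeft_apply]
          apply Submodule.subset_span
          exact ⟨c, z, hc1, hc2, hz, mul_comm _ _⟩
        exact h3 hw
      · simp only [E, hi, if_false]
        exact Submodule.subset_span rfl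
    · intro w hw
      have hex : ∀ q : Fin S.card, ∃ c z, d (σ q) ≤ c ∧ c ≤ b ∧ z ∈ H693.ZZ1 (n + 1) ∧
          w (σ q) = z ^ c * X 0 ^ (b - c) := by
        intro q
        have h1 := hw (σ q)
        have h2 : σ q ∈ S := by
          have h3 := Finset.mem_map_of_mem σ (Finset.mem_univ q)
          rwa [hσ] at h3
        simp only [E, h2, if_true] at h1
        exact h1
      choose c z hc1 hc2 hz hwσ using hex
      apply formOf_slots lam l hx hj σ c hc2 z hz w ?_ hwσ
      · refine lt_of_lt_of_le hlt ?_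
        rw [hsum]
        exact Finset.sum_le_sum (fun q _ => hc1 q)
      · intro i
        have h1 := hw i
        by_cases hi : i ∈ S
        · simp only [E, hi, if_true] at h1
          obtain ⟨c', z', -, hc', hz', h2⟩ := h1
          rw [h2]
          have h3 : linS (n + 2) ^ b = linS (n + 2) ^ c' * linS (n + 2) ^ (b - c') := by
            rw [← pow_add]
            congr 1
            omega
          rw [h3]
          exact Submodule.mul_mem_mul (Submodule.pow_mem_pow _ (hZ hz') _)
            (Submodule.pow_mem_pow _ (X_mem_linS 0) _)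
        · simp only [E, hi, if_false] at h1
          rw [h1]
          exact hPL i
  · push Not at hj
    rw [rho_of_le lam (by omega)] at hlt
    exact H693.zv_formOf lam l hx d hd P hP
      (lt_of_lt_of_le hlt (Finset.sum_le_sum_of_subset (Finset.subset_univ _)))

/-- The numerical condition for the partial sums. -/
def PartCond (a s : ℕ) (ρ : ℕ → ℕ) : Prop :=
  ∀ i : ℕ, 2 ≤ i → i ≤ a → 2 * s < (i - 1) * (i - 2) → ∃ j, j ≤ a ∧
    ρ j < min j (a - i + 1) * (s + (i - 1) * (i - 2) / 2 + 1) +
      ∑ l ∈ Finset.range (j - (a - i + 1)), (s + i * (i - 1) / 2 + 1 - (l + 1) * (i - 1))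

/-- **The canonical map is injective on highest weight vectors with bounded partial sums.** -/
theorem injOn_part {a b s : ℕ} (hb : b = s + a * (a - 1) / 2) (lam : Fin (n + 2) → ℕ)
    (h : PartCond a s (rho lam)) (x : Pleth a b (n + 2))
    (hx : x ∈ hwSpace lam (plethAct a b (n + 2)))
    (h0 : foulkesHowe a b (Fin (n + 2) → ℂ) x = 0) : x = 0 := by
  obtain ⟨l, rfl⟩ := exists_elOf x
  apply elOf_eq_zero
  have hK := isK_formOf l h0
  rcases a with _ | k
  · exact noKer_zero _ _ (formOf l) (formOf_symm l) hK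
  · rw [Nat.add_sub_cancel] at hb
    subst hb
    have hZ := bd_formOf lam l hx (s + (k + 1) * k / 2)
    have hD : ZD (linS (n + 2)) (H693.ZZ1 (n + 1)) (s + (k + 1) * k / 2)
        (s + (k + 1) * k / 2) (formOf l) := fun _ _ hb => absurd hb (by omega)
    exact part_main (p := X 0) (L := linS (n + 2)) (Z := H693.ZZ1 (n + 1))
      (H693.sup_eq1 (n + 1)).symm (H693.hasRoots_linS (n + 2)) s (k + 1) (rho lam)
      h k 0 rfl (s + (k + 1) * k / 2) (formOf l) (formOf_symm l) hK hZ hD

theorem plethMult_part {a b s : ℕ} (hb : b = s + a * (a - 1) / 2) (lam : Fin (n + 2) → ℕ)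
    (h : PartCond a s (rho lam)) :
    plethMult a b (n + 2) lam ≤ plethMult b a (n + 2) lam :=
  finrank_le_of_inj (foulkesHowe a b (Fin (n + 2) → ℂ)) _ _
    (fun x hx => foulkesHowe_hwSpace lam x hx)
    (fun x hx h0 => injOn_part hb lam h x hx h0)

end Vale.Agent.P181.H780
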