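import Vale.Agent.P181.R2.H780.Inv

/-!
The polynomial of a multilinear form: `d ↦ G ((d₁·X)^b, …, (d_m·X)^b)`.
-/

set_option autoImplicit false

namespace Vale.Agent.P181.H780

open Vale.Agent.P181 MvPolynomial H280 H536

variable {N m b : ℕ}

/-- The linear form with coefficients `d`. -/
noncomputable def linF (d : Fin N → ℂ) : MvPolynomial (Fin N) ℂ := ∑ e, d e • X e

lemma linF_mem (d : Fin N → ℂ) : linF d ∈ linS N :=
  Submodule.sum_mem _ fun e _ => Submodule.smul_mem _ _ (X_mem_linS e)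

lemma exists_linF {x : MvPolynomial (Fin N) ℂ} (hx : x ∈ linS N) : ∃ d : Fin N → ℂ, linF d = x := by
  obtain ⟨c, hc⟩ := (Submodule.mem_span_range_iff_exists_fun ℂ).1 hx
  exact ⟨c, hc⟩

/-- The polynomial of a multilinear form on forms of degree `b`. -/
noncomputable def polyOf (b : ℕ) (G : MultilinearMap ℂ (fun _ : Fin m => MvPolynomial (Fin N) ℂ) ℂ) :
    MvPolynomial (Fin m × Fin N) ℂ :=
  ∑ c : Fin m → Fin b → Fin N, C (G (fun i => ∏ j, X (c i j))) * ∏ i, ∏ j, X (i, c i j)

theorem eval_polyOf (G : MultilinearMap ℂ (fun _ : Fin m => MvPolynomial (Fin N) ℂ) ℂ)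
    (d : Fin m × Fin N → ℂ) :
    eval d (polyOf b G) = G (fun i => linF (fun e => d (i, e)) ^ b) := by
  classical
  have h1 : (fun i : Fin m => linF (fun e => d (i, e)) ^ b) =
      fun i => ∑ c : Fin b → Fin N, (∏ j, d (i, c j)) • ∏ j, (X (c j) : MvPolynomial (Fin N) ℂ) := by
    funext i
    have h2 : linF (fun e => d (i, e)) ^ b = ∏ _j : Fin b, ∑ e : Fin N, d (i, e) • (X e : MvPolynomial (Fin N) ℂ) := by
      rw [Finset.prod_const, Finset.card_univ, Fintype.card_fin]
      rfl
    rw [h2, Finset.prod_univ_sum, Fintype.piFinset_univ]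
    refine Finset.sum_congr rfl fun c _ => ?_
    rw [Finset.prod_smul]
  rw [h1, MultilinearMap.map_sum, polyOf, map_sum]
  refine Finset.sum_congr rfl fun c _ => ?_
  rw [MultilinearMap.map_smul_univ, map_mul, eval_C, map_prod, smul_eq_mul, mul_comm]
  congr 1
  refine Finset.prod_congr rfl fun i _ => ?_
  rw [map_prod]
  exact Finset.prod_congr rfl fun j _ => eval_X _

/-- If the polynomial vanishes then the form vanishes. -/
theorem zero_of_polyOf (G : MultilinearMap ℂ (fun _ : Fin m => MvPolynomial (Fin N) ℂ) ℂ)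
    (h : polyOf b G = 0) (P : Fin m → MvPolynomial (Fin N) ℂ) (hP : ∀ i, P i ∈ linS N ^ b) :
    G P = 0 := by
  apply multilinear_zero_of_span G ((fun a => a ^ b) '' (linS N : Set (MvPolynomial (Fin N) ℂ)))
  · intro w hw
    have h1 : ∀ i, ∃ d : Fin N → ℂ, w i = linF d ^ b := by
      intro i
      obtain ⟨x, hx, hxw⟩ := hw i
      obtain ⟨d, rfl⟩ := exists_linF hx
      exact ⟨d, hxw.symm⟩
    choose d hd using h1
    have h2 := eval_polyOf (b := b) G (fun q => d q.1 q.2)
    rw [h, map_zero] at h2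
    rw [h2]
    congr 1
    funext i
    exact hd i
  · intro i
    have h1 := pow_le_span_pow (linS N) b (hP i)
    refine Submodule.span_mono ?_ h1
    rintro _ ⟨x, hx, rfl⟩
    exact ⟨x, hx, rfl⟩

/-- Symmetry. -/
theorem eval_polyOf_symm {G : MultilinearMap ℂ (fun _ : Fin m => MvPolynomial (Fin N) ℂ) ℂ}
    (hG : IsSymm G) (σ : Equiv.Perm (Fin m)) (d : Fin m × Fin N → ℂ) :
    eval (fun q => d (σ q.1, q.2)) (polyOf b G) = eval d (polyOf b G) := by
  rw [eval_polyOf, eval_polyOf]
  exact hG σ (fun i => linF (fun e => d (i, e)) ^ b)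

end Vale.Agent.P181.H780
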