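import Vale.Agent.P181.R2.H780.Chain
import Vale.Agent.P181.R2.H780.Comp

/-!
Forms that vanish as soon as one argument has many letters outside a fixed line `x`: the
recursion of the quadratic bound with the free step for the fixed letter `x`.
-/

set_option autoImplicit false

open Finset

namespace Vale.Agent.P181.H780

open Vale.Agent.P181

variable {A : Type*} [CommRing A] [Algebra ℂ A]

/-- In degree `b` the form vanishes as soon as one argument lies in `Z ^ (ℓ + 1) * L ^ e`,
`ℓ + 1 + e = b`. -/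
def RD (L Z : Submodule ℂ A) (b ℓ : ℕ) {a : ℕ} (G : MultilinearMap ℂ (fun _ : Fin a => A) ℂ) :
    Prop :=
  ∀ e, ℓ + 1 + e = b → ∀ (i : Fin a) (P : Fin a → A), (∀ j, P j ∈ L ^ b) →
    P i ∈ Z ^ (ℓ + 1) * L ^ e → G P = 0

/-- The canonical kernel has no nonzero form with the property `RD`. -/
def RDKer (L Z : Submodule ℂ A) (a b ℓ : ℕ) : Prop :=
  ∀ G : MultilinearMap ℂ (fun _ : Fin a => A) ℂ, IsSymm G → IsK L b G → RD L Z b ℓ G →
    ∀ P : Fin a → A, (∀ i, P i ∈ L ^ b) → G P = 0

lemma NoKer.rd {L Z : Submodule ℂ A} {a b ℓ : ℕ} (h : NoKer L a b) : RDKer L Z a b ℓ :=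
  fun G hs hK _ P hP => h G hs hK P hP

/-- Splitting off the letter `x`. -/
lemma pow_le_split {L Z : Submodule ℂ A} {x : A} (hL : L = Submodule.span ℂ {x} ⊔ Z)
    {k ℓ b : ℕ} (h : k + ℓ ≤ b) (hk : 1 ≤ k) :
    L ^ b ≤ Submodule.span ℂ ({y | ∃ R ∈ L ^ (b - k), x ^ k * R = y} ∪
      (↑(Z ^ (ℓ + 1) * L ^ (b - (ℓ + 1))) : Set A)) := by
  have hx : x ∈ L := by
    rw [hL]
    exact Submodule.mem_sup_left (Submodule.mem_span_singleton_self x)
  have hZ : Z ≤ L := by
    rw [hL]
    exact le_sup_right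
  refine (pow_le_span_pow L _).trans ?_
  rw [Submodule.span_le]
  rintro _ ⟨θ, hθ, rfl⟩
  have hθ' := hθ
  simp only [SetLike.mem_coe] at hθ' ⊢
  rw [hL, Submodule.mem_sup] at hθ'
  obtain ⟨y, hy, z, hz, rfl⟩ := hθ'
  obtain ⟨α, rfl⟩ := Submodule.mem_span_singleton.1 hy
  rw [add_pow]
  apply Submodule.sum_mem
  intro j hj
  rw [Finset.mem_range] at hj
  have hzL : z ∈ L := hZ hz
  have h0 : (α • x) ^ j * z ^ (b - j) * ((b.choose j : ℕ) : A) =
      (((b.choose j : ℕ) : ℂ) * α ^ j) • (x ^ j * z ^ (b - j)) := by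
    simp only [Algebra.smul_def, map_natCast, map_pow, map_mul]
    ring
  rw [h0]
  apply Submodule.smul_mem
  apply Submodule.subset_span
  by_cases hjk : k ≤ j
  · left
    refine ⟨x ^ (j - k) * z ^ (b - j), ?_, ?_⟩
    · have h1 : b - k = (j - k) + (b - j) := by omega
      rw [h1, pow_add L]
      exact Submodule.mul_mem_mul (Submodule.pow_mem_pow _ hx _) (Submodule.pow_mem_pow _ hzL _)
    · have h1 : j = k + (j - k) := by omega
      conv_rhs => rw [h1, pow_add]
      have h2 : b - (k + (j - k)) = b - j := by omega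
      rw [h2]
      ring
  · right
    have h1 : b - j = (ℓ + 1) + (b - j - (ℓ + 1)) := by omega
    have h2 : x ^ j * z ^ (b - j) = z ^ (ℓ + 1) * (x ^ j * z ^ (b - j - (ℓ + 1))) := by
      conv_lhs => rw [h1, pow_add]
      ring
    rw [h2]
    have h3 : b - (ℓ + 1) = j + (b - j - (ℓ + 1)) := by omega
    rw [h3, pow_add L]
    exact Submodule.mul_mem_mul (Submodule.pow_mem_pow _ hz _)
      (Submodule.mul_mem_mul (Submodule.pow_mem_pow _ hx _) (Submodule.pow_mem_pow _ hzL _))

/-- **One step of the recursion** for forms with the property `RD`. -/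
theorem rd_step {L Z : Submodule ℂ A} {x : A} (hr : HasRoots L)
    (hL : L = Submodule.span ℂ {x} ⊔ Z) {k ℓ b : ℕ} (hk : 1 ≤ k) (h : k + ℓ ≤ b)
    (hker : RDKer L Z k (b - k) ℓ) : RDKer L Z (k + 1) b ℓ := by
  intro F hs hK hR P hP
  have hx : x ∈ L := by
    rw [hL]
    exact Submodule.mem_sup_left (Submodule.mem_span_singleton_self x)
  have hZ : Z ≤ L := by
    rw [hL]
    exact le_sup_right
  have hxk : ∀ {R : A}, R ∈ L ^ (b - k) → x ^ k * R ∈ L ^ b := by
    intro R hR'
    have h1 : b = k + (b - k) := by omega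
    rw [h1, pow_add L]
    exact Submodule.mul_mem_mul (Submodule.pow_mem_pow _ hx _) hR'
  have hZb : (Z ^ (ℓ + 1) * L ^ (b - (ℓ + 1)) : Submodule ℂ A) ≤ L ^ b := by
    have h1 : L ^ b = L ^ (ℓ + 1) * L ^ (b - (ℓ + 1)) := by
      rw [← pow_add]
      congr 1
      omega
    rw [h1]
    exact mul_le_mul' (pow_le_pow_left' hZ _) le_rfl
  have hP0 : P = Fin.cons (P 0) (fun i => P i.succ) := by
    funext i
    refine Fin.cases ?_ (fun i => ?_) i
    · rfl
    · rfl
  rw [hP0, ← MultilinearMap.curryLeft_apply]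
  apply H280.multilinear_zero_of_span (F.curryLeft (P 0))
    ({y | ∃ R ∈ L ^ (b - k), x ^ k * R = y} ∪
      (↑(Z ^ (ℓ + 1) * L ^ (b - (ℓ + 1))) : Set A))
  · intro w hw
    have hwL : ∀ i, w i ∈ L ^ b := by
      intro i
      rcases hw i with ⟨R, hR', hi⟩ | hi
      · rw [← hi]
        exact hxk hR'
      · exact hZb hi
    by_cases hall : ∀ i, ∃ R ∈ L ^ (b - k), x ^ k * R = w i
    · choose R hR1 hR2 using hall
      have h3 := hker (mulArg (F.curryLeft (P 0)) (fun _ => x ^ k))
        ((hs.curryLeft _).mulArg_const _) ?_ ?_ R hR1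
      · rw [mulArg_apply] at h3
        rw [← h3]
        congr 1
        funext i
        exact (hR2 i).symm
      · intro m hm hmL
        rw [mulArg_apply]
        have h4 := lemmaC2 le_rfl (baseAt_pow hr hk hx) F hs hK m hmL 0 (by simp) (by
          rw [Multiset.card_zero, hm]; omega) (P 0) (by
            have h5 : k + m.card = b := by omega
            rw [h5]; exact hP 0)
        simpa only [Multiset.prod_zero, mul_one] using h4
      · intro e he i Q hQ hi
        rw [mulArg_apply, MultilinearMap.curryLeft_apply]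
        apply hR (k + e) (by omega) i.succ
        · intro j
          refine Fin.cases ?_ (fun j => ?_) j
          · rw [Fin.cons_zero]
            exact hP 0
          · rw [Fin.cons_succ]
            exact hxk (hQ j)
        · rw [Fin.cons_succ, add_comm k e, pow_add L, ← mul_assoc, mul_comm (x ^ k)]
          exact Submodule.mul_mem_mul hi (Submodule.pow_mem_pow _ hx _)
    · push Not at hall
      obtain ⟨i, hi⟩ := hall
      have hi' : w i ∈ (Z ^ (ℓ + 1) * L ^ (b - (ℓ + 1)) : Submodule ℂ A) := by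
        rcases hw i with ⟨R, hR', hi2⟩ | hi2
        · exact absurd hi2 (hi R hR')
        · exact hi2
      rw [MultilinearMap.curryLeft_apply]
      apply hR (b - (ℓ + 1)) (by omega) i.succ
      · intro j
        refine Fin.cases ?_ (fun j => ?_) j
        · rw [Fin.cons_zero]
          exact hP 0
        · rw [Fin.cons_succ]
          exact hwL j
      · rw [Fin.cons_succ]
        exact hi'
  · intro i
    exact pow_le_split hL h hk (hP i.succ)

/-- **The recursion.** -/
theorem rdKer {L Z : Submodule ℂ A} {x : A} (hr : HasRoots L)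
    (hL : L = Submodule.span ℂ {x} ⊔ Z) (ℓ s : ℕ) (a : ℕ) (hsa : s + 1 ≤ a) :
    ∀ b, a * (a - 1) + s * (s - 1) ≤ 2 * b → a * (a - 1) + 2 * ℓ ≤ 2 * b + s * (s + 1) →
      RDKer L Z a b ℓ := by
  induction a, hsa using Nat.le_induction with
  | base =>
    intro b hb _
    apply NoKer.rd
    intro F hs hK P hP
    refine core2 hr (s + 1) b ?_ F hs hK P hP
    rw [Nat.add_sub_cancel] at hb ⊢
    rcases s with _ | s
    · simp
    · rw [Nat.add_sub_cancel] at hb
      nlinarith
  | succ k hk ih =>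
    intro b h1 h2
    rw [Nat.add_sub_cancel] at h1 h2
    obtain ⟨j, rfl⟩ : ∃ j, k = j + 1 := ⟨k - 1, by omega⟩
    rw [Nat.add_sub_cancel] at ih
    have hkb : j + 1 + ℓ ≤ b := by nlinarith
    apply rd_step hr hL (by omega) hkb
    obtain ⟨c, rfl⟩ := Nat.exists_eq_add_of_le (show j + 1 ≤ b by omega)
    rw [Nat.add_sub_cancel_left]
    apply ih
    · nlinarith
    · nlinarith

/-- The linear form of the condition. -/
theorem rdKer_linear {L Z : Submodule ℂ A} {x : A} (hr : HasRoots L)
    (hL : L = Submodule.span ℂ {x} ⊔ Z) {ℓ a b : ℕ} (h : a * (a - 1) + ℓ ≤ 2 * b) :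
    RDKer L Z a b ℓ := by
  rcases a with _ | k
  · exact (noKer_zero L b).rd
  rw [Nat.add_sub_cancel] at h
  by_cases hb : k ^ 2 ≤ b
  · exact NoKer.rd (fun F hs hK P hP => core2 hr (k + 1) b (by simpa using hb) F hs hK P hP)
  · push Not at hb
    -- the largest `s` with `s * (s - 1) ≤ 2 * b - (k + 1) * k`
    have hex : ∃ s, s ≤ k ∧ (k + 1) * k + s * (s - 1) ≤ 2 * b ∧ 2 * b < (k + 1) * k + (s + 1) * s := by
      by_contra hne
      push Not at hne
      have : ∀ s, s ≤ k + 1 → (k + 1) * k + s * (s - 1) ≤ 2 * b := by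
        intro s
        induction s with
        | zero => intro _; simp; omega
        | succ s ih =>
          intro hs
          rw [Nat.add_sub_cancel]
          exact hne s (by omega) (ih (by omega))
      have h1 := this (k + 1) le_rfl
      rw [Nat.add_sub_cancel] at h1
      nlinarith
    obtain ⟨s, hsk, hs1, hs2⟩ := hex
    refine rdKer hr hL ℓ s (k + 1) (by omega) b (by simpa using hs1) ?_
    rw [Nat.add_sub_cancel]
    nlinarith

end Vale.Agent.P181.H780
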