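import Vale.Agent.P181.R2.H556.Three2Defs
import Vale.Agent.P181.R2.H780.Three

/-!
The passage to highest weight vectors, for forms invariant under both shears.
-/

set_option autoImplicit false

open scoped TensorProduct

namespace Vale.Agent.P181.T3R

open MvPolynomial Vale.Agent.P181 Vale.Agent.P181.H536 Vale.Agent.P181.H280 Vale.Agent.P181.H780

lemma isShear_sh2 (α β : ℂ) :
    IsShear (Submodule.span ℂ {(X 0 : MvPolynomial (Fin (1 + 2)) ℂ), X 1}) (ZZ 1) (sh2 α β) := by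
  have hZ : ∀ z ∈ ZZ 1, sh2 α β z = z := by
    intro z hz
    rw [ZZ] at hz
    induction hz using Submodule.span_induction with
    | mem x hx =>
      obtain ⟨i, rfl⟩ := hx
      fin_cases i
      exact sh2_X2 α β
    | zero => rw [map_zero]
    | add x y _ _ hx hy => rw [map_add, hx, hy]
    | smul c x _ hx => rw [map_smul, hx]
  refine ⟨hZ, ?_⟩
  intro u hu
  obtain ⟨p, q, rfl⟩ := Submodule.mem_span_pair.1 hu
  have h2 : (X 2 : S3) ∈ ZZ 1 := Submodule.subset_span ⟨0, rfl⟩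
  have h0 : sh2 α β (X 0) = X 0 + α • X 2 := sh2_X0 α β
  have h1 : sh2 α β (X 1) = X 1 + β • X 2 := sh2_X1 α β
  have h3 : sh2 α β (p • X 0 + q • X 1) - (p • X 0 + q • X 1) =
      p • α • (X 2 : S3) + q • β • (X 2 : S3) := by
    rw [map_add, map_smul, map_smul, h0, h1, smul_add, smul_add]
    abel
  exact h3 ▸ (ZZ 1).add_mem ((ZZ 1).smul_mem _ ((ZZ 1).smul_mem _ h2))
    ((ZZ 1).smul_mem _ ((ZZ 1).smul_mem _ h2))

/-- The form of a highest weight vector is invariant under all shears. -/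
theorem inv2_formOf {a b : ℕ} (lam : Fin 3 → ℕ) (l : (Fin a → Fin b → (Fin 3 → ℂ)) →₀ ℂ)
    (hx : elOf l ∈ hwSpace lam (plethAct a b 3)) : Inv2 b (formOf l) :=
  fun α β P hP => formOf_shear (n := 1) lam l hx (sh2 α β) (isShear_sh2 α β) P hP

/-- The form of a highest weight vector is homogeneous for `tau`. -/
theorem hom_formOf {a b : ℕ} (lam : Fin 3 → ℕ) (l : (Fin a → Fin b → (Fin 3 → ℂ)) →₀ ℂ)
    (hx : elOf l ∈ hwSpace lam (plethAct a b 3)) : Hom b (lam 2) (formOf l) := by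
  intro c hc P hP
  have h1 := formOf_scal (n := 1) lam l hx c hc P hP
  have h2 : (∑ i : Fin 1, lam i.succ.succ) = lam 2 := by
    rw [Fin.sum_univ_one]; rfl
  rw [h2, tau_eq_scal] at h1
  exact h1

lemma sh2_left (ε : ℂ) : sh2 ε 0 = sh ε := by
  apply MvPolynomial.algHom_ext
  intro i
  fin_cases i
  · exact (sh2_X0 ε 0).trans (sh_X0 ε).symm
  · refine (sh2_X1 ε 0).trans ?_
    rw [zero_smul, add_zero]
    exact (sh_X1 ε).symm
  · exact (sh2_X2 ε 0).trans (sh_X2 ε).symm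

lemma Inv2.inv {a b : ℕ} {F : Fm a} (h : Inv2 b F) : Inv b F := by
  intro ε P hP
  rw [← sh2_left]
  exact h ε 0 P hP

lemma KK.two' {a b t : ℕ} (h : KK a b t) : KK2 a b t :=
  fun F hs hI hH hK => h F hs hI.inv hH hK

/-- **W6.** The known tail theorem. -/
theorem tree2 {N b t a : ℕ} (hN : 1 ≤ N) (ht : t + N ≤ b) (ha : a ≤ N + 1) : KK2 a b t :=
  KK.two' (tree hN ht ha)

/-- **W7.** Injectivity on highest weight vectors. -/
theorem injOn_of_KK2 {a b : ℕ} (lam : Fin 3 → ℕ) (hK : KK2 a b (lam 2)) (x : Pleth a b 3)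
    (hx : x ∈ hwSpace lam (plethAct a b 3)) (h0 : foulkesHowe a b (Fin 3 → ℂ) x = 0) : x = 0 := by
  obtain ⟨l, rfl⟩ := exists_elOf x
  apply elOf_eq_zero
  exact hK (formOf l) (formOf_symm l) (inv2_formOf lam l hx) (hom_formOf lam l hx)
    (isK_formOf l h0)

theorem plethMult_of_KK2 {a b : ℕ} (lam : Fin 3 → ℕ) (hK : KK2 a b (lam 2)) :
    plethMult a b 3 lam ≤ plethMult b a 3 lam :=
  finrank_le_of_inj (foulkesHowe a b (Fin 3 → ℂ)) _ _
    (fun x hx => foulkesHowe_hwSpace lam x hx)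
    (fun x hx h0 => injOn_of_KK2 lam hK x hx h0)

end Vale.Agent.P181.T3R
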